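import Mathlib

/-!
# P184: finitely supported cocycles, wreath products, `F / [R, R] R ^ n`
-/

namespace Vale.Agent.P184.H13

/-- A homomorphism `pi : G →* Q` together with a cocycle on `G` with values in the finitely
supported functions on `Q` (with values in an abelian group `A`). -/
structure Coc (G Q A : Type*) [Group G] [Group Q] [AddCommGroup A] where
  /-- the homomorphism -/
  pi : G →* Q
  /-- the cocycle -/
  c : G → Q → A
  fin : ∀ g, {p | c g p ≠ 0}.Finite
  mul : ∀ g h p, c (g * h) p = c g (pi h * p) + c h p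

/-- The total charge of `t` at the coset of `x` under the cyclic group generated by `pi t`. -/
noncomputable def Coc.D {G Q A : Type*} [Group G] [Group Q] [AddCommGroup A] (Z : Coc G Q A)
    (t : G) (x : Q) : A :=
  ∑ᶠ u : Subgroup.zpowers (Z.pi t), Z.c t (u * x)

/-- The restricted regular wreath product of the abelian group `A` with the group `Q`: pairs of a
finitely supported function `Q → A` and an element of `Q`. -/
@[ext] structure Wr (A Q : Type*) [AddCommGroup A] [Group Q] where
  /-- the function -/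
  fn : Q →₀ A
  /-- the element of `Q` -/
  pt : Q

namespace Wr

variable {A Q : Type*} [AddCommGroup A] [Group Q]

/-- translation of functions: `(tl s f) x = f (s⁻¹ * x)` -/
noncomputable def tl (s : Q) (f : Q →₀ A) : Q →₀ A := f.mapDomain (s * ·)

theorem tl_apply (s : Q) (f : Q →₀ A) (x : Q) : tl s f x = f (s⁻¹ * x) := by
  have h := Finsupp.mapDomain_apply (mul_right_injective s) f (s⁻¹ * x)
  rw [← h]
  congr 1
  group

theorem tl_one (f : Q →₀ A) : tl 1 f = f := by
  ext x; rw [tl_apply, inv_one, one_mul]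

theorem tl_tl (s t : Q) (f : Q →₀ A) : tl s (tl t f) = tl (s * t) f := by
  ext x; rw [tl_apply, tl_apply, tl_apply, mul_inv_rev, mul_assoc]

theorem tl_add (s : Q) (f g : Q →₀ A) : tl s (f + g) = tl s f + tl s g :=
  Finsupp.mapDomain_add

theorem tl_neg (s : Q) (f : Q →₀ A) : tl s (-f) = -tl s f := by
  ext x; rw [tl_apply, Finsupp.neg_apply, Finsupp.neg_apply, tl_apply]

theorem tl_zero (s : Q) : tl s (0 : Q →₀ A) = 0 := by
  ext x; rw [tl_apply]; rfl

noncomputable instance : Mul (Wr A Q) := ⟨fun a b => ⟨a.fn + tl a.pt b.fn, a.pt * b.pt⟩⟩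
noncomputable instance : One (Wr A Q) := ⟨⟨0, 1⟩⟩
noncomputable instance : Inv (Wr A Q) := ⟨fun a => ⟨-tl a.pt⁻¹ a.fn, a.pt⁻¹⟩⟩

theorem mul_fn (a b : Wr A Q) : (a * b).fn = a.fn + tl a.pt b.fn := rfl
theorem mul_pt (a b : Wr A Q) : (a * b).pt = a.pt * b.pt := rfl
theorem one_fn : (1 : Wr A Q).fn = 0 := rfl
theorem one_pt : (1 : Wr A Q).pt = 1 := rfl
theorem inv_fn (a : Wr A Q) : (a⁻¹).fn = -tl a.pt⁻¹ a.fn := rfl
theorem inv_pt (a : Wr A Q) : (a⁻¹).pt = a.pt⁻¹ := rfl

/-- The wreath product `A ≀ Q`: `(f, s) (g, t) = (f + g (s⁻¹ ·), s t)`. -/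
noncomputable instance : Group (Wr A Q) :=
  Group.ofLeftAxioms
    (fun a b c => Wr.ext
      (by rw [mul_fn, mul_fn, mul_fn, mul_fn, mul_pt, tl_add, tl_tl, add_assoc])
      (by rw [mul_pt, mul_pt, mul_pt, mul_pt, mul_assoc]))
    (fun a => Wr.ext (by rw [mul_fn, one_fn, one_pt, tl_one, zero_add])
      (by rw [mul_pt, one_pt, one_mul]))
    (fun a => Wr.ext (by rw [mul_fn, inv_fn, inv_pt, one_fn, neg_add_cancel])
      (by rw [mul_pt, inv_pt, one_pt, inv_mul_cancel]))

/-- the projection to `Q` -/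
noncomputable def proj : Wr A Q →* Q where
  toFun := Wr.pt
  map_one' := rfl
  map_mul' _ _ := rfl

/-- the inclusion of `Q` -/
noncomputable def incl : Q →* Wr A Q where
  toFun s := ⟨0, s⟩
  map_one' := rfl
  map_mul' s t := Wr.ext (by rw [mul_fn, tl_zero, add_zero]) rfl

/-- the tautological cocycle of the wreath product -/
noncomputable def coc : Coc (Wr A Q) Q A where
  pi := proj
  c a p := a.fn (a.pt * p)
  fin a := by
    refine (a.fn.support.finite_toSet.preimage (mul_right_injective a.pt).injOn).subset ?_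
    intro p hp
    exact Finset.mem_coe.2 (Finsupp.mem_support_iff.2 hp)
  mul a b p := by
    rw [mul_fn, mul_pt, Finsupp.add_apply, tl_apply]
    congr 1
    · rw [mul_assoc]; rfl
    · congr 1; group

end Wr

/-- The normal subgroup `[R, R] R ^ n` generated by the commutators and the `n`-th powers of the
elements of `R`. -/
def rel {ι : Type*} (R : Subgroup (FreeGroup ι)) (n : ℕ) : Subgroup (FreeGroup ι) :=
  Subgroup.normalClosure ({x | ∃ a ∈ R, ∃ b ∈ R, x = a * b * a⁻¹ * b⁻¹} ∪
    {x | ∃ a ∈ R, x = a ^ n})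

instance {ι : Type*} (R : Subgroup (FreeGroup ι)) (n : ℕ) : (rel R n).Normal :=
  Subgroup.normalClosure_normal

end Vale.Agent.P184.H13
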