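import Vale.Agent.P184.H13.MagCor

/-!
# P184: permanence for extensions, finiteness without surjectivity
-/

namespace Vale.Agent.P184.H13

open Vale.Agent.P184

universe u v w

section

variable {G : Type u} {Q : Type v} {A : Type w} [Group G] [Group Q] [AddCommGroup A]

theorem shift_D (Z : Coc G Q A) (x : Q) (t : G) (y : Q) : (Z.shift x).D t y = Z.D t (y * x) := by
  unfold Coc.D
  refine finsum_congr fun u => ?_
  change Z.c t (u * y * x) = Z.c t (u * (y * x))
  rw [mul_assoc]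

theorem D_conj' (Z : Coc G Q A) (t p : G) (x : Q) :
    Z.D (p⁻¹ * t * p) x = Z.D t (Z.pi p * x) := by
  have h := H369.D_conj (Z.shift x) t p
  rw [shift_D, shift_D, one_mul] at h
  exact h

/-- Permanence: if `D` separates the classes over `Q`, up to conjugacy, from the uncharged
ones. -/
theorem ext_bass (Z : Coc G Q A) (hab : ∀ a b, Z.pi a = 1 → Z.pi b = 1 → Commute a b)
    (hsurj : Function.Surjective Z.pi)
    (huniq : ∀ t t', Z.pi t = Z.pi t' → (∀ x, Z.D t x = 0) → (∀ x, Z.D t' x = 0) → IsConj t t')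
    (hQ : L1Bass Q) : L1Bass G := by
  classical
  intro q e he
  obtain ⟨b, hb, htau⟩ := pushforward Z.pi e he
  obtain ⟨F₁, hF1, hF1'⟩ := hQ q b hb
  have hF2 := (mainThm Z hab).2 hsurj q e he
  set F₂ := {C : ConjClasses G | tau C e ≠ 0 ∧ ∃ t, ConjClasses.mk t = C ∧ ∃ x, Z.D t x ≠ 0}
    with hF₂
  have hone : ∀ x, Z.D 1 x = 0 := by
    intro x
    unfold Coc.D
    rw [finsum_congr fun u : Subgroup.zpowers (Z.pi 1) => H369.c_one Z (u * x)]
    exact finsum_zero
  -- uncharged elements over the same class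
  have hconj : ∀ t t' : G, (¬ ∃ x, Z.D t x ≠ 0) → (¬ ∃ x, Z.D t' x ≠ 0) →
      ConjClasses.mk (Z.pi t) = ConjClasses.mk (Z.pi t') →
      ConjClasses.mk t = ConjClasses.mk t' := by
    intro t t' hx hx' hp
    obtain ⟨c, hc⟩ := isConj_iff.1 (ConjClasses.mk_eq_mk_iff_isConj.1 hp)
    obtain ⟨g, rfl⟩ := hsurj c
    have h1 : IsConj t (g * t * g⁻¹) := isConj_iff.2 ⟨g, rfl⟩
    refine ConjClasses.mk_eq_mk_iff_isConj.2 (h1.trans (huniq _ _ ?_ ?_ ?_))
    · rw [map_mul, map_mul, map_inv]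
      exact hc
    · intro x
      have h2 := D_conj' Z t g⁻¹ x
      rw [inv_inv] at h2
      rw [h2]
      exact by_contra fun h => hx ⟨_, h⟩
    · exact fun x => by_contra fun h => hx' ⟨_, h⟩
  -- uncharged elements over torsion elements
  have htors : ∀ t : G, (¬ ∃ x, Z.D t x ≠ 0) → IsOfFinOrder (Z.pi t) → IsOfFinOrder t := by
    intro t hx ht
    refine isOfFinOrder_iff_pow_eq_one.2 ⟨orderOf (Z.pi t), ht.orderOf_pos, ?_⟩
    have h1 : Z.pi (t ^ orderOf (Z.pi t)) = Z.pi 1 := by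
      rw [map_pow, pow_orderOf_eq_one, map_one]
    have h2 : IsConj (t ^ orderOf (Z.pi t)) 1 := by
      refine huniq _ _ h1 (fun x => ?_) hone
      unfold Coc.D
      have h3 : ∀ u : Subgroup.zpowers (Z.pi (t ^ orderOf (Z.pi t))),
          Z.c (t ^ orderOf (Z.pi t)) (u * x) = 0 := by
        rintro ⟨u, hu⟩
        rw [h1, map_one, Subgroup.zpowers_one_eq_bot, Subgroup.mem_bot] at hu
        subst hu
        change Z.c _ (1 * x) = 0
        rw [one_mul, H788.c_pow, ← H788.D_eq_sum Z ht]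
        exact by_contra fun h => hx ⟨x, h⟩
      rw [finsum_congr h3]
      exact finsum_zero
    exact isConj_one_left.1 h2
  -- the trace of the push forward
  have hpush : ∀ t : G, (¬ ∃ x, Z.D t x ≠ 0) →
      (∀ t' : G, (∃ x, Z.D t' x ≠ 0) → ConjClasses.mk (Z.pi t') = ConjClasses.mk (Z.pi t) →
        tau (ConjClasses.mk t') e = 0) →
      tau (ConjClasses.mk (Z.pi t)) b = tau (ConjClasses.mk t) e := by
    intro t hx h1
    rw [htau, tsum_classes_single he Z.pi (ConjClasses.mk (Z.pi t)) (ConjClasses.mk t) rfl]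
    intro D hD' hne
    obtain ⟨t', rfl⟩ := ConjClasses.mk_surjective D
    by_cases hx' : ∃ x, Z.D t' x ≠ 0
    · exact h1 t' hx' hD'
    · exact (hne (hconj t' t hx' hx hD')).elim
  have hvan : ∀ t : G, ¬ IsOfFinOrder t → tau (ConjClasses.mk t) e = 0 := by
    intro t ht
    by_cases hx : ∃ x, Z.D t x ≠ 0
    · exact (mainThm Z hab).1 t ht hx q e he
    have h1 : ¬ IsOfFinOrder (Z.pi t) := fun h => ht (htors t hx h)
    rw [← hpush t hx fun t' hx' hp => ?_]
    · refine hF1' _ fun h => h1 ?_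
      exact isTorsionClass_mk.1 (hF1 _ h)
    · refine (mainThm Z hab).1 t' (fun h => h1 ?_) hx' q e he
      obtain ⟨c, hc⟩ := isConj_iff.1 (ConjClasses.mk_eq_mk_iff_isConj.1 hp)
      rw [← hc]
      exact (isConj_iff.2 ⟨c, rfl⟩ : IsConj (Z.pi t') (c * Z.pi t' * c⁻¹)).isOfFinOrder
        (Z.pi.isOfFinOrder h)
  set T := {C : ConjClasses G | tau C e ≠ 0} with hT
  have hsub : ∀ C ∈ T, C ∉ F₂ →
      ConjClasses.map Z.pi C ∈ (F₁ : Set (ConjClasses Q)) ∪ ConjClasses.map Z.pi '' F₂ := by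
    intro C hC hC2
    obtain ⟨t, rfl⟩ := ConjClasses.mk_surjective C
    have hx : ¬ ∃ x, Z.D t x ≠ 0 := fun h => hC2 ⟨hC, t, rfl, h⟩
    by_cases h1 : ConjClasses.map Z.pi (ConjClasses.mk t) ∈ ConjClasses.map Z.pi '' F₂
    · exact Or.inr h1
    left
    by_contra h2
    have h3 := hF1' _ h2
    refine hC ?_
    rw [← hpush t hx fun t' hx' hp => ?_]
    · exact h3
    · by_contra h5
      exact h1 ⟨_, ⟨h5, t', rfl, hx'⟩, hp⟩
  have hinjOn : Set.InjOn (ConjClasses.map Z.pi) (T \ F₂) := by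
    rintro C ⟨hC, hC'⟩ D ⟨hD1, hD'⟩ h
    obtain ⟨t, rfl⟩ := ConjClasses.mk_surjective C
    obtain ⟨t', rfl⟩ := ConjClasses.mk_surjective D
    exact hconj t t' (fun h => hC' ⟨hC, t, rfl, h⟩) (fun h => hD' ⟨hD1, t', rfl, h⟩) h
  have hfin : T.Finite := by
    have h1 : (T \ F₂).Finite := by
      refine Set.Finite.of_finite_image (f := ConjClasses.map Z.pi)
        (((Finset.finite_toSet F₁).union (hF2.image (ConjClasses.map Z.pi))).subset ?_) hinjOn
      rintro _ ⟨C, ⟨hC, hC'⟩, rfl⟩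
      exact hsub C hC hC'
    refine (h1.union hF2).subset ?_
    intro C hC
    by_cases h : C ∈ F₂
    · exact Or.inr h
    · exact Or.inl ⟨hC, h⟩
  refine ⟨hfin.toFinset, fun C hC => ?_, fun C hC => ?_⟩
  · rw [Set.Finite.mem_toFinset] at hC
    obtain ⟨t, rfl⟩ := ConjClasses.mk_surjective C
    exact isTorsionClass_mk.2 (by_contra fun h => hC (hvan t h))
  · rw [Set.Finite.mem_toFinset] at hC
    exact not_not.1 hC

/-- Vanishing is inherited by the wreath product. -/
theorem vanish_ext (Z : Coc G Q A) (hab : ∀ a b, Z.pi a = 1 → Z.pi b = 1 → Commute a b)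
    (hsurj : Function.Surjective Z.pi)
    (huniq : ∀ t t', Z.pi t = Z.pi t' → (∀ x, Z.D t x = 0) → (∀ x, Z.D t' x = 0) → IsConj t t')
    (hQ : ∀ s : Q, ¬ IsOfFinOrder s → VanishesAt s) (t : G) (ht : ¬ IsOfFinOrder (Z.pi t)) :
    VanishesAt t := by
  classical
  have ht' : ¬ IsOfFinOrder t := fun h => ht (Z.pi.isOfFinOrder h)
  intro q e he
  by_cases hx : ∃ x, Z.D t x ≠ 0
  · exact (mainThm Z hab).1 t ht' hx q e he
  obtain ⟨b, hb, htau⟩ := pushforward Z.pi e he
  have h0 := hQ (Z.pi t) ht q b hb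
  rw [htau, tsum_classes_single he Z.pi (ConjClasses.mk (Z.pi t)) (ConjClasses.mk t) rfl] at h0
  · exact h0
  intro D hD' hne
  obtain ⟨t', rfl⟩ := ConjClasses.mk_surjective D
  have hp : ConjClasses.mk (Z.pi t') = ConjClasses.mk (Z.pi t) := hD'
  obtain ⟨c, hc⟩ := isConj_iff.1 (ConjClasses.mk_eq_mk_iff_isConj.1 hp)
  have h1 : ¬ IsOfFinOrder (Z.pi t') := by
    intro h
    refine ht ?_
    rw [← hc]
    exact (isConj_iff.2 ⟨c, rfl⟩ : IsConj (Z.pi t') (c * Z.pi t' * c⁻¹)).isOfFinOrder h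
  by_cases hx' : ∃ x, Z.D t' x ≠ 0
  · exact (mainThm Z hab).1 t' (fun h => h1 (Z.pi.isOfFinOrder h)) hx' q e he
  · obtain ⟨g, rfl⟩ := hsurj c
    refine (hne (ConjClasses.mk_eq_mk_iff_isConj.2 ?_)).elim
    have h2 : IsConj t' (g * t' * g⁻¹) := isConj_iff.2 ⟨g, rfl⟩
    refine h2.trans (huniq _ _ ?_ ?_ ?_)
    · rw [map_mul, map_mul, map_inv]
      exact hc
    · intro x
      have h3 := D_conj' Z t' g⁻¹ x
      rw [inv_inv] at h3
      rw [h3]
      exact by_contra fun h => hx' ⟨_, h⟩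
    · exact fun x => by_contra fun h => hx ⟨_, h⟩

end

section Range

variable {G : Type u} {Q : Type v} {A : Type w} [Group G] [Group Q] [AddCommGroup A]

/-- right cosets of the range -/
abbrev RC (Z : Coc G Q A) := Quotient (QuotientGroup.rightRel Z.pi.range)

theorem rc_iff (Z : Coc G Q A) (x y : Q) :
    (Quotient.mk (QuotientGroup.rightRel Z.pi.range) x = Quotient.mk _ y) ↔
      y * x⁻¹ ∈ Z.pi.range := Quotient.eq.trans QuotientGroup.rightRel_apply

theorem fin_aux (Z : Coc G Q A) (g : G) (p : Q) :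
    (Function.support fun r : RC Z => Z.c g (p * r.out)).Finite := by
  refine ((Z.fin g).preimage (f := fun r : RC Z => p * r.out) ?_)
  intro r _ r' _ h
  have h1 : r.out = r'.out := mul_left_cancel h
  rw [← Quotient.out_eq r, h1, Quotient.out_eq]

open Classical in
/-- the cocycle over the range -/
noncomputable def Coc.toRange (Z : Coc G Q A) : Coc G Z.pi.range (RC Z →₀ A) where
  pi := Z.pi.rangeRestrict
  c g p := Finsupp.ofSupportFinite (fun r => Z.c g (p * r.out)) (fin_aux Z g p)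
  fin g := by
    have h1 : ((fun q : Q => q * (Quotient.mk (QuotientGroup.rightRel Z.pi.range) q).out⁻¹) ''
        {p | Z.c g p ≠ 0}).Finite := (Z.fin g).image _
    refine Set.Finite.of_finite_image (f := Subtype.val) (h1.subset ?_)
      Subtype.val_injective.injOn
    rintro _ ⟨p, hp, rfl⟩
    obtain ⟨r, hr⟩ : ∃ r : RC Z, Z.c g (p * r.out) ≠ 0 := by
      by_contra h
      push Not at h
      exact hp (Finsupp.ext fun r => h r)
    refine ⟨p * r.out, hr, ?_⟩
    have h2 : (Quotient.mk (QuotientGroup.rightRel Z.pi.range) ((p : Q) * r.out)) = r := by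
      refine Eq.trans ?_ (Quotient.out_eq r)
      refine (rc_iff Z _ _).2 ?_
      have h3 : r.out * ((p : Q) * r.out)⁻¹ = (p : Q)⁻¹ := by group
      rw [h3]
      exact inv_mem p.2
    change (p : Q) * r.out * (Quotient.mk (QuotientGroup.rightRel Z.pi.range)
      ((p : Q) * r.out)).out⁻¹ = p
    rw [h2, mul_inv_cancel_right]
  mul g h p := by
    refine Finsupp.ext fun r => ?_
    change Z.c (g * h) (p * r.out) = Z.c g (Z.pi h * p * r.out) + Z.c h (p * r.out)
    rw [Z.mul, mul_assoc]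

theorem toRange_D (Z : Coc G Q A) (t : G) (p : Z.pi.range) (r : RC Z) :
    Z.toRange.D t p r = Z.D t (p * r.out) := by
  classical
  have h1 : (Function.support fun u : Subgroup.zpowers (Z.toRange.pi t) =>
      Z.toRange.c t (u * p)).Finite := by
    refine ((Z.toRange.fin t).preimage (f := fun u : Subgroup.zpowers (Z.toRange.pi t) =>
      (u : Z.pi.range) * p) ?_)
    intro u _ v _ h
    exact Subtype.ext (mul_right_cancel h)
  have h2 := (Finsupp.applyAddHom (M := A) r).map_finsum h1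
  refine Eq.trans h2 ?_
  unfold Coc.D
  have hz : ∀ u : Subgroup.zpowers (Z.toRange.pi t), ((u : Z.pi.range) : Q) ∈
      Subgroup.zpowers (Z.pi t) := by
    rintro ⟨u, k, rfl⟩
    exact ⟨k, rfl⟩
  refine finsum_eq_of_bijective (fun u => ⟨_, hz u⟩) ⟨fun u v h => ?_, fun u => ?_⟩ fun u => ?_
  · have h' := congrArg (fun w : Subgroup.zpowers (Z.pi t) => (w : Q)) h
    exact Subtype.ext (Subtype.ext h')
  · obtain ⟨u, k, rfl⟩ := u
    exact ⟨⟨(Z.toRange.pi t) ^ k, k, rfl⟩, rfl⟩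
  · change Z.c t (u * p * r.out) = Z.c t (u * (p * r.out))
    rw [mul_assoc]

/-- Finiteness, without surjectivity. -/
theorem fin_all (Z : Coc G Q A) (hab : ∀ a b, Z.pi a = 1 → Z.pi b = 1 → Commute a b) {q : ℕ}
    {e : Matrix (Fin q) (Fin q) (G → ℂ)} (he : IsIdem e) :
    {C : ConjClasses G | tau C e ≠ 0 ∧
      ∃ t, ConjClasses.mk t = C ∧ ∃ x, Z.D t x ≠ 0}.Finite := by
  have hab' : ∀ a b, Z.toRange.pi a = 1 → Z.toRange.pi b = 1 → Commute a b := fun a b ha hb =>
    hab a b (congrArg Subtype.val ha) (congrArg Subtype.val hb)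
  refine ((mainThm Z.toRange hab').2 Z.pi.rangeRestrict_surjective q e he).subset ?_
  rintro C ⟨hC, t, ht, x, hx⟩
  refine ⟨hC, t, ht, ?_⟩
  set r : RC Z := Quotient.mk (QuotientGroup.rightRel Z.pi.range) x with hr
  have h1 : x * r.out⁻¹ ∈ Z.pi.range := by
    refine (rc_iff Z r.out x).1 ?_
    rw [← hr]
    exact Quotient.out_eq r
  refine ⟨⟨_, h1⟩, fun h => hx ?_⟩
  have h2 := toRange_D Z t ⟨_, h1⟩ r
  rw [h] at h2
  change (0 : A) = Z.D t (x * r.out⁻¹ * r.out) at h2
  rw [inv_mul_cancel_right] at h2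
  exact h2.symm

end Range

end Vale.Agent.P184.H13
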