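import Vale.Agent.P184.H13.Rows2
import Vale.Agent.P184.Bdl.B3

/-!
# P184: vanishing of the Fourier coefficients
-/

noncomputable section

namespace Vale.Agent.P184.H13

open scoped Topology ENNReal

universe u v w

section

variable {J M : Type*} (mu₁ mu₂ : J → M) (w : J → ℂ)

/-- the sum over a fibre of the doubled index set -/
theorem fibre_sum (m : M) (hm : ∀ j, mu₂ j ≠ m) :
    ∑' j : {j : J ⊕ J // Sum.elim mu₁ mu₂ j = m}, Sum.elim w (fun j => -w j) j.1 =
      ∑' j : {j : J // mu₁ j = m}, w j := by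
  let φ : {j : J // mu₁ j = m} ≃ {j : J ⊕ J // Sum.elim mu₁ mu₂ j = m} :=
    { toFun := fun j => ⟨Sum.inl j.1, j.2⟩
      invFun := fun j => match j with
        | ⟨Sum.inl j, h⟩ => ⟨j, h⟩
        | ⟨Sum.inr j, h⟩ => (hm j h).elim
      left_inv := fun j => rfl
      right_inv := fun j => match j with
        | ⟨Sum.inl j, h⟩ => rfl
        | ⟨Sum.inr j, h⟩ => (hm j h).elim }
  rw [← φ.tsum_eq]
  rfl

theorem summable_elim {w v : J → ℂ} (h1 : Summable fun j => ‖w j‖) (h2 : Summable fun j => ‖v j‖) :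
    Summable fun j : J ⊕ J => ‖Sum.elim w v j‖ :=
  (HasSum.sum (f := fun j : J ⊕ J => ‖Sum.elim w v j‖) h1.hasSum h2.hasSum).summable

end

section

variable {G : Type u} {Q : Type v} {A : Type w} [Group G] [Group Q] [AddCommGroup A]

/-- The Fourier coefficients away from `A`-component `0`. -/
theorem coeff (hR : RowR.{u, v, w}) (hF : RowFour.{max u w, u}) (Z : Coc G Q A) {q : ℕ}
    {e : Matrix (Fin q) (Fin q) (G → ℂ)} (he : IsIdem e) (hw : WSum Z e) (s : Q)
    (hs : Summable fun j : JJ Z s => ‖wt Z s e j‖) :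
    (∀ m : Abelianization (Hs Z s) × Multiplicative A, m.2 ≠ 1 → ¬ IsOfFinOrder m →
      ∑' j : {j : JJ Z s // mu Z s j = m}, wt Z s e j = 0) ∧
    {m : Abelianization (Hs Z s) × Multiplicative A | m.2 ≠ 1 ∧
      ∑' j : {j : JJ Z s // mu Z s j = m}, wt Z s e j ≠ 0}.Finite := by
  set w' : JJ Z s ⊕ JJ Z s → ℂ := Sum.elim (wt Z s e) (fun j => -wt Z s e j) with hw'
  set μ' : JJ Z s ⊕ JJ Z s → Abelianization (Hs Z s) × Multiplicative A :=
    Sum.elim (mu Z s) (fun j => ((mu Z s j).1, 1)) with hμ'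
  have hs' : Summable fun j => ‖w' j‖ := by
    have h2 : Summable fun j : JJ Z s => ‖-wt Z s e j‖ :=
      hs.congr fun j => (norm_neg (wt Z s e j)).symm
    exact summable_elim hs h2
  have hchar : ∀ χ : (Abelianization (Hs Z s) × Multiplicative A) →* Circle, ∃ n : ℤ,
      ∑' j, w' j * (χ (μ' j) : ℂ) = n := by
    intro χ
    obtain ⟨n, hn⟩ := hR Z q e he hw s
      ((χ.comp (MonoidHom.inl _ _)).comp Abelianization.of) (χ.comp (MonoidHom.inr _ _))
    refine ⟨n, ?_⟩
    rw [← hn]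
    have h1 : Summable fun j : JJ Z s => wt Z s e j * (χ (mu Z s j) : ℂ) := by
      refine Summable.of_norm (hs.congr fun j => ?_)
      rw [norm_mul, Circle.norm_coe, mul_one]
    have h2 : Summable fun j : JJ Z s => -wt Z s e j * (χ ((mu Z s j).1, 1) : ℂ) := by
      refine Summable.of_norm (hs.congr fun j => ?_)
      rw [norm_mul, norm_neg, Circle.norm_coe, mul_one]
    have h3 : ∑' j, w' j * (χ (μ' j) : ℂ) = ∑' j : JJ Z s, wt Z s e j * (χ (mu Z s j) : ℂ) +
        ∑' j : JJ Z s, -wt Z s e j * (χ ((mu Z s j).1, 1) : ℂ) := by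
      exact Summable.tsum_sum h1 h2
    rw [h3, ← h1.tsum_add h2]
    refine tsum_congr fun j => ?_
    have h4 : χ (mu Z s j) = χ ((mu Z s j).1, 1) * χ (1, (mu Z s j).2) := by
      rw [← map_mul, Prod.mk_mul_mk, one_mul, mul_one]
    rw [h4, Circle.coe_mul]
    change wt Z s e j * ((χ ((mu Z s j).1, 1) : ℂ) * (χ (1, (mu Z s j).2) : ℂ)) +
      -wt Z s e j * (χ ((mu Z s j).1, 1) : ℂ) = wt Z s e j * ((χ ((mu Z s j).1, 1) : ℂ) *
        ((χ (1, (mu Z s j).2) : ℂ) - 1))
    ring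
  obtain ⟨h1, h2⟩ := hF w' μ' hs' hchar
  have key : ∀ m : Abelianization (Hs Z s) × Multiplicative A, m.2 ≠ 1 →
      ∑' j : {j // μ' j = m}, w' j = ∑' j : {j : JJ Z s // mu Z s j = m}, wt Z s e j := by
    intro m hm
    refine fibre_sum (mu Z s) (fun j => ((mu Z s j).1, 1)) (wt Z s e) m fun j hj => hm ?_
    rw [← hj]
  refine ⟨fun m hm hm' => ?_, ?_⟩
  · rw [← key m hm]
    exact h1 m hm'
  · refine h2.subset fun m hm => ?_
    change ∑' j : {j // μ' j = m}, w' j ≠ 0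
    rw [key m hm.1]
    exact hm.2

end

end Vale.Agent.P184.H13
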