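import Vale.Agent.P184.Defs
import Vale.Agent.P184.Bdl.B3

/-!
# P184: quotients by finite normal subgroups
-/

namespace Vale.Agent.P184.H13

open Vale.Agent.P184

universe u v

section

variable {G : Type u} {Q : Type v} [Group G] [Group Q] (π : G →* Q)

/-- `G` as the product of `Q` and the kernel -/
noncomputable def splitEquiv (hs : Function.Surjective π) : Q × π.ker ≃ G where
  toFun p := (hs p.1).choose * p.2
  invFun g := (π g, ⟨(hs (π g)).choose⁻¹ * g, by
    rw [MonoidHom.mem_ker, map_mul, map_inv, (hs (π g)).choose_spec, inv_mul_cancel]⟩)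
  left_inv := by
    rintro ⟨q, n, hn⟩
    have h1 : π ((hs q).choose * n) = q := by
      rw [map_mul, (hs q).choose_spec, MonoidHom.mem_ker.1 hn, mul_one]
    refine Prod.ext h1 (Subtype.ext ?_)
    change (hs (π ((hs q).choose * n))).choose⁻¹ * ((hs q).choose * n) = n
    rw [h1, inv_mul_cancel_left]
  right_inv g := mul_inv_cancel_left _ _

theorem pi_split (hs : Function.Surjective π) (p : Q × π.ker) : π (splitEquiv π hs p) = p.1 := by
  change π ((hs p.1).choose * p.2) = p.1
  rw [map_mul, (hs p.1).choose_spec, MonoidHom.mem_ker.1 p.2.2, mul_one]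

theorem split_eq (hs : Function.Surjective π) {g : G} {q' : Q} (h : π g = q') :
    splitEquiv π hs (q', ((splitEquiv π hs).symm g).2) = g := by
  subst h
  exact (splitEquiv π hs).apply_symm_apply g

theorem tsum_comp_pi (hs : Function.Surjective π) [Finite π.ker] (m : Q → ℕ) (M : Set G)
    (hm : ∀ q, Nat.card {n : π.ker // splitEquiv π hs (q, n) ∈ M} = m q) {F : Q → ℂ}
    (hF : Summable fun q => ‖F q‖) :
    (Summable fun g => ‖F (π g)‖) ∧
      ∑' g, M.indicator (fun g => F (π g)) g = ∑' q, (m q : ℂ) * F q := by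
  classical
  have := Fintype.ofFinite π.ker
  have h1 : Summable fun p : Q × π.ker => ‖F p.1‖ := by
    refine (summable_prod_of_nonneg (f := fun p : Q × π.ker => ‖F p.1‖)
      fun _ => norm_nonneg _).2 ⟨fun q => (hasSum_fintype _).summable, ?_⟩
    have h2 : ∀ q, ∑' _ : π.ker, ‖F q‖ = Fintype.card π.ker * ‖F q‖ := by
      intro q
      rw [tsum_fintype, Finset.sum_const, Finset.card_univ, nsmul_eq_mul]
    simp only [h2]
    exact hF.mul_left _
  have h3 : Summable fun g => ‖F (π g)‖ := by
    rw [← (splitEquiv π hs).summable_iff]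
    refine h1.congr fun p => ?_
    change ‖F p.1‖ = ‖F (π (splitEquiv π hs p))‖
    rw [pi_split]
  refine ⟨h3, ?_⟩
  rw [← (splitEquiv π hs).tsum_eq]
  have h4 : ∀ p : Q × π.ker, M.indicator (fun g => F (π g)) (splitEquiv π hs p) =
      if splitEquiv π hs p ∈ M then F p.1 else 0 := by
    intro p
    rw [Set.indicator_apply, pi_split]
  rw [tsum_congr h4]
  have h5 : Summable fun p : Q × π.ker => if splitEquiv π hs p ∈ M then F p.1 else 0 := by
    refine Summable.of_norm_bounded h1 fun p => ?_
    split_ifs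
    · exact le_rfl
    · rw [norm_zero]; exact norm_nonneg _
  rw [h5.tsum_prod]
  refine tsum_congr fun q => ?_
  rw [tsum_fintype, ← Finset.sum_filter]
  dsimp only
  rw [Finset.sum_const, nsmul_eq_mul, ← hm q]
  congr 2
  rw [Nat.card_eq_fintype_card, Fintype.card_subtype]

theorem tsum_pi (hs : Function.Surjective π) [Finite π.ker] {F : Q → ℂ}
    (hF : Summable fun q => ‖F q‖) : ∑' g, F (π g) = (Nat.card π.ker : ℂ) * ∑' q, F q := by
  have h := (tsum_comp_pi π hs (fun _ => Nat.card π.ker) Set.univ (fun q => ?_) hF).2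
  · rw [Set.indicator_univ] at h
    rw [h, tsum_mul_left]
  · exact Nat.card_congr (Equiv.subtypeUnivEquiv fun _ => trivial)

/-- The conjecture passes to quotients by finite normal subgroups. -/
theorem bass_of_surj (hs : Function.Surjective π) [Finite π.ker] (h : L1Bass G) : L1Bass Q := by
  classical
  intro q e he
  set c : ℂ := (Nat.card π.ker : ℂ) with hc
  have hc0 : c ≠ 0 := by
    rw [hc]
    exact_mod_cast Nat.card_pos.ne'
  set e' : Matrix (Fin q) (Fin q) (G → ℂ) := fun i j g => c⁻¹ * e i j (π g) with he'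
  have hidem : IsIdem e' := by
    refine ⟨fun i j => ?_, fun i j g => ?_⟩
    · have h1 := (tsum_comp_pi π hs (fun q => Nat.card {n : π.ker // splitEquiv π hs (q, n) ∈
        (Set.univ : Set G)}) Set.univ (fun _ => rfl) (he.1 i j)).1
      refine (h1.mul_left ‖c⁻¹‖).congr fun g => ?_
      change _ = ‖c⁻¹ * e i j (π g)‖
      rw [norm_mul]
    · rw [he']
      dsimp only
      have h2 : ∀ k, ∑' h, c⁻¹ * e i k (π h) * (c⁻¹ * e k j (π (h⁻¹ * g))) =
          c⁻¹ * ∑' q, e i k q * e k j (q⁻¹ * π g) := by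
        intro k
        have h3 : Summable fun q => ‖e i k q * e k j (q⁻¹ * π g)‖ := by
          have h4 : ∃ B : ℝ, ∀ q, ‖e k j q‖ ≤ B :=
            ⟨∑' q, ‖e k j q‖, fun q => (he.1 k j).le_tsum q fun _ _ => norm_nonneg _⟩
          obtain ⟨B, hB⟩ := h4
          refine Summable.of_nonneg_of_le (fun _ => norm_nonneg _) (fun q => ?_)
            ((he.1 i k).mul_right B)
          rw [norm_mul]
          exact mul_le_mul_of_nonneg_left (hB _) (norm_nonneg _)
        have h5 := tsum_pi π hs h3
        have h6 : ∀ h, c⁻¹ * e i k (π h) * (c⁻¹ * e k j (π (h⁻¹ * g))) =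
            c⁻¹ * c⁻¹ * (e i k (π h) * e k j ((π h)⁻¹ * π g)) := by
          intro h
          rw [map_mul, map_inv]
          ring
        rw [tsum_congr h6, tsum_mul_left, h5, ← hc, ← mul_assoc]
        congr 1
        field_simp
      simp only [h2]
      rw [← Finset.mul_sum, he.2 i j (π g)]
  obtain ⟨F, hF1, hF2⟩ := h q e' hidem
  refine ⟨F.image (ConjClasses.map π), fun C hC => ?_, fun C hC => ?_⟩
  · obtain ⟨D, hD, rfl⟩ := Finset.mem_image.1 hC
    obtain ⟨t, rfl⟩ := ConjClasses.mk_surjective D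
    exact isTorsionClass_mk.2 (π.isOfFinOrder (isTorsionClass_mk.1 (hF1 _ hD)))
  · obtain ⟨s, rfl⟩ := ConjClasses.mk_surjective C
    obtain ⟨t, rfl⟩ := hs s
    have h1 : ConjClasses.mk t ∉ F := fun h => hC (Finset.mem_image.2 ⟨_, h, rfl⟩)
    have h2 := hF2 _ h1
    set M : Set G := (ConjClasses.mk t).carrier with hM
    set m : Q → ℕ := fun q => Nat.card {n : π.ker // splitEquiv π hs (q, n) ∈ M} with hm
    have hfs : Summable fun q' => ‖∑ i, e i i q'‖ :=
      Summable.of_nonneg_of_le (fun _ => norm_nonneg _) (fun _ => norm_sum_le _ _)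
        (summable_sum fun i _ => he.1 i i)
    have h3 := (tsum_comp_pi π hs m M (fun _ => rfl) hfs).2
    have h4 : tau (ConjClasses.mk t) e' = c⁻¹ * ∑' q', (m q' : ℂ) * ∑ i, e i i q' := by
      rw [← h3]
      unfold tau
      rw [tsum_subtype (ConjClasses.mk t).carrier (fun g => ∑ i, e' i i g), ← tsum_mul_left]
      refine tsum_congr fun g => ?_
      rw [Set.indicator_apply, Set.indicator_apply]
      by_cases hg : g ∈ M
      · rw [if_pos hg, if_pos hg, Finset.mul_sum]
      · rw [if_neg hg, if_neg hg, mul_zero]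
    -- the fibres
    have hmem : ∀ g, g ∈ M ↔ ConjClasses.mk g = ConjClasses.mk t := fun g =>
      ConjClasses.mem_carrier_iff_mk_eq
    have hm2 : ∀ q', m q' = Nat.card {g : G // g ∈ M ∧ π g = q'} := by
      intro q'
      refine Nat.card_congr
        { toFun := fun n => ⟨splitEquiv π hs (q', n.1), n.2, pi_split π hs _⟩
          invFun := fun g => ⟨((splitEquiv π hs).symm g.1).2, ?_⟩
          left_inv := fun n => ?_
          right_inv := fun g => ?_ }
      · rw [split_eq π hs g.2.2]
        exact g.2.1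
      · refine Subtype.ext ?_
        change ((splitEquiv π hs).symm (splitEquiv π hs (q', n.1))).2 = n.1
        rw [Equiv.symm_apply_apply]
      · exact Subtype.ext (split_eq π hs g.2.2)
    have hm0 : ∀ q', ConjClasses.mk q' ≠ ConjClasses.mk (π t) → m q' = 0 := by
      intro q' hq
      rw [hm2]
      have : IsEmpty {g : G // g ∈ M ∧ π g = q'} := by
        refine ⟨fun g => hq ?_⟩
        rw [← g.2.2]
        exact congrArg (ConjClasses.map π) ((hmem g.1).1 g.2.1)
      exact Nat.card_of_isEmpty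
    have hm1 : ∀ q', ConjClasses.mk q' = ConjClasses.mk (π t) → m q' = m (π t) := by
      intro q' hq
      obtain ⟨a, ha⟩ := isConj_iff.1 (ConjClasses.mk_eq_mk_iff_isConj.1 hq)
      obtain ⟨g, rfl⟩ := hs a
      rw [hm2, hm2]
      refine Nat.card_congr
        { toFun := fun x => ⟨g * x.1 * g⁻¹, ?_, ?_⟩
          invFun := fun x => ⟨g⁻¹ * x.1 * g, ?_, ?_⟩
          left_inv := fun x => Subtype.ext (by group)
          right_inv := fun x => Subtype.ext (by group) }
      · rw [hmem, ← (hmem x.1).1 x.2.1]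
        exact ConjClasses.mk_eq_mk_iff_isConj.2 (isConj_iff.2 ⟨g, rfl⟩ : IsConj x.1 _).symm
      · rw [map_mul, map_mul, map_inv, x.2.2, ha]
      · rw [hmem, ← (hmem x.1).1 x.2.1]
        refine ConjClasses.mk_eq_mk_iff_isConj.2 (isConj_iff.2 ⟨g⁻¹, ?_⟩ : IsConj x.1 _).symm
        rw [inv_inv]
      · rw [map_mul, map_mul, map_inv, x.2.2, ← ha]
        group
    have hpos : (m (π t) : ℂ) ≠ 0 := by
      have hne : Nonempty {n : π.ker // splitEquiv π hs (π t, n) ∈ M} := by
        refine ⟨⟨((splitEquiv π hs).symm t).2, ?_⟩⟩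
        rw [split_eq π hs rfl, hmem]
      exact_mod_cast (Nat.card_pos (α := {n : π.ker // splitEquiv π hs (π t, n) ∈ M})).ne'
    have h6 : ∑' q', (m q' : ℂ) * ∑ i, e i i q' = m (π t) * tau (ConjClasses.mk (π t)) e := by
      unfold tau
      rw [tsum_subtype (ConjClasses.mk (π t)).carrier (fun g => ∑ i, e i i g), ← tsum_mul_left]
      refine tsum_congr fun q' => ?_
      rw [Set.indicator_apply]
      by_cases hq : q' ∈ (ConjClasses.mk (π t)).carrier
      · rw [if_pos hq, hm1 q' (ConjClasses.mem_carrier_iff_mk_eq.1 hq)]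
      · rw [if_neg hq, hm0 q' fun h => hq (ConjClasses.mem_carrier_iff_mk_eq.2 h)]
        rw [Nat.cast_zero, zero_mul, mul_zero]
    rw [h4, h6] at h2
    have h7 := (mul_eq_zero.1 h2).resolve_left (inv_ne_zero hc0)
    exact (mul_eq_zero.1 h7).resolve_left hpos

end

end Vale.Agent.P184.H13
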