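import Mathlib

/-!
# P184: graph products
-/

namespace Vale.Agent.P184.H13

open scoped commutatorElement

universe u v w

/-- The homomorphism `f` from the free product of the groups `G a` presents `P` as their graph
product along the graph `Γ`: `f` is surjective, and its kernel is the normal closure of the
commutators of the elements of adjacent groups. -/
def IsGraphProduct {V : Type u} (Γ : SimpleGraph V) (G : V → Type v) [∀ a, Group (G a)]
    {P : Type w} [Group P] (f : Monoid.CoprodI G →* P) : Prop :=
  Function.Surjective f ∧ f.ker = Subgroup.normalClosure {x : Monoid.CoprodI G |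
    ∃ a b, Γ.Adj a b ∧ ∃ (g : G a) (h : G b), x = ⁅Monoid.CoprodI.of g, Monoid.CoprodI.of h⁆}

end Vale.Agent.P184.H13
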