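import Vale.Agent.P184.H13.GPD
import Vale.Agent.P184.H290.Gp
import Vale.Agent.P184.H11.Free

/-!
# P184: graph products, theorem
-/

namespace Vale.Agent.P184.H13

open Vale.Agent.P184
open scoped commutatorElement

universe u v w x

theorem graphProduct {V : Type u} (Γ : SimpleGraph V) (G : V → Type v) [∀ a, Group (G a)]
    (S : Type w) [Group S] {P : Type x} [Group P] (f : Monoid.CoprodI G →* P)
    (hf : IsGraphProduct Γ G f) :
    L1Bass (S × P) ↔ ∀ C : Finset V, Γ.IsClique C → L1Bass (S × ∀ a : C, G a) := by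
  rw [← H290.graphProduct_spec Γ G S]
  obtain ⟨hs, hk⟩ := hf
  have h1 : {x : Monoid.CoprodI G | ∃ a b, Γ.Adj a b ∧ ∃ (g : G a) (h : G b),
      x = ⁅Monoid.CoprodI.of g, Monoid.CoprodI.of h⁆} = H290.gpRel Γ G := rfl
  rw [h1] at hk
  let e : H290.GP Γ G ≃* P := (QuotientGroup.quotientMulEquivOfEq hk.symm).trans
    (QuotientGroup.quotientKerEquivOfSurjective f hs)
  constructor
  · exact H11.l1Bass_retract ((MonoidHom.id S).prodMap e.toMonoidHom)
      ((MonoidHom.id S).prodMap e.symm.toMonoidHom) fun x => by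
        refine Prod.ext rfl ?_
        exact e.symm_apply_apply x.2
  · exact H11.l1Bass_retract ((MonoidHom.id S).prodMap e.symm.toMonoidHom)
      ((MonoidHom.id S).prodMap e.toMonoidHom) fun x => by
        refine Prod.ext rfl ?_
        exact e.apply_symm_apply x.2

end Vale.Agent.P184.H13
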