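import Vale.Agent.P184.H13.Thm
import Vale.Agent.P184.H788.Lift
import Vale.Agent.P184.H11.Magnus

/-!
# P184: the groups `F / [R, R] R ^ n`
-/

namespace Vale.Agent.P184.H13

open Vale.Agent.P184

universe u v w

section

variable {G : Type u} {Q : Type v} {A : Type w} [Group G] [Group Q] [AddCommGroup A]

theorem vanish_inf (Z : Coc G Q A) (hab : ∀ a b, Z.pi a = 1 → Z.pi b = 1 → Commute a b) (n : ℕ)
    (hn : n ≠ 0 → ∀ a, Z.pi a = 1 → a ^ n = 1)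
    (hD : ∀ t, t ≠ 1 → (Z.pi t ≠ 1 → IsOfFinOrder (Z.pi t) → ¬ (orderOf (Z.pi t)).Coprime n) →
      ∃ x, Z.D t x ≠ 0) (t : G) (ht : ¬ IsOfFinOrder t) : VanishesAt t := by
  refine (mainThm Z hab).1 t ht (hD t (fun h => ht (h ▸ IsOfFinOrder.one)) fun h1 h2 h3 => ?_)
  have hn0 : n ≠ 0 := by
    rintro rfl
    rw [Nat.coprime_zero_right, orderOf_eq_one_iff] at h3
    exact h1 h3
  have h4 : Z.pi (t ^ orderOf (Z.pi t)) = 1 := by rw [map_pow, pow_orderOf_eq_one]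
  have h5 := hn hn0 _ h4
  rw [← pow_mul] at h5
  exact ht (isOfFinOrder_iff_pow_eq_one.2 ⟨_, Nat.mul_pos h2.orderOf_pos (Nat.pos_of_ne_zero hn0),
    h5⟩)

theorem bass_of_quot (Z : Coc G Q A) (hab : ∀ a b, Z.pi a = 1 → Z.pi b = 1 → Commute a b)
    (hsurj : Function.Surjective Z.pi) (n : ℕ)
    (hn : n ≠ 0 → ∀ a, Z.pi a = 1 → a ^ n = 1)
    (hD : ∀ t, t ≠ 1 → (Z.pi t ≠ 1 → IsOfFinOrder (Z.pi t) → ¬ (orderOf (Z.pi t)).Coprime n) →
      ∃ x, Z.D t x ≠ 0)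
    (hQ : ∀ (q : ℕ) (e : Matrix (Fin q) (Fin q) (Q → ℂ)), IsIdem e →
      {C : ConjClasses Q | tau C e ≠ 0 ∧ ∃ s, ConjClasses.mk s = C ∧ s ≠ 1 ∧ IsOfFinOrder s ∧
        (orderOf s).Coprime n}.Finite) : L1Bass G := by
  classical
  intro q e he
  obtain ⟨b, hb, htau⟩ := pushforward Z.pi e he
  have hF1 := hQ q b hb
  have hF2 := (mainThm Z hab).2 hsurj q e he
  set F₁ := {C : ConjClasses Q | tau C b ≠ 0 ∧ ∃ s, ConjClasses.mk s = C ∧ s ≠ 1 ∧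
    IsOfFinOrder s ∧ (orderOf s).Coprime n}
  set F₂ := {C : ConjClasses G | tau C e ≠ 0 ∧ ∃ t, ConjClasses.mk t = C ∧ ∃ x, Z.D t x ≠ 0}
  have hinj : ∀ a, Z.pi a = 1 → (∀ x, Z.c a x = 0) → a = 1 := by
    intro a ha hc
    by_contra h
    obtain ⟨x, hx⟩ := hD a h fun h1 => (h1 ha).elim
    refine hx ?_
    unfold Coc.D
    rw [finsum_congr fun u : Subgroup.zpowers (Z.pi a) => hc (u * x)]
    exact finsum_zero
  -- the classes without charge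
  have hconj : ∀ t t' : G, t ≠ 1 → (¬ ∃ x, Z.D t x ≠ 0) → (¬ ∃ x, Z.D t' x ≠ 0) →
      ConjClasses.mk (Z.pi t) = ConjClasses.mk (Z.pi t') →
      ConjClasses.mk t = ConjClasses.mk t' ∧ Z.pi t ≠ 1 ∧ IsOfFinOrder (Z.pi t) ∧
        (orderOf (Z.pi t)).Coprime n := by
    intro t t' ht hx hx' hp
    have h1 : Z.pi t ≠ 1 ∧ IsOfFinOrder (Z.pi t) ∧ (orderOf (Z.pi t)).Coprime n := by
      by_contra h2
      exact hx (hD t ht fun h3 h4 h5 => h2 ⟨h3, h4, h5⟩)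
    have hn0 : n ≠ 0 := by
      rintro rfl
      have h3 := h1.2.2
      rw [Nat.coprime_zero_right, orderOf_eq_one_iff] at h3
      exact h1.1 h3
    refine ⟨ConjClasses.mk_eq_mk_iff_isConj.2 ?_, h1⟩
    exact (H788.conj_of_D Z hsurj hab n (hn hn0) hinj (ConjClasses.mk_eq_mk_iff_isConj.1 hp)
      h1.2.1 h1.2.2 (fun x => by_contra fun h => hx ⟨x, h⟩)
      (fun x => by_contra fun h => hx' ⟨x, h⟩)).1
  set T := {C : ConjClasses G | tau C e ≠ 0} with hT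
  have hsub : ∀ C ∈ T, C ∉ F₂ → C ≠ ConjClasses.mk 1 →
      ConjClasses.map Z.pi C ∈ F₁ ∪ ConjClasses.map Z.pi '' F₂ := by
    intro C hC hC2 hC1
    obtain ⟨t, rfl⟩ := ConjClasses.mk_surjective C
    have ht : t ≠ 1 := fun h => hC1 (by rw [h])
    have hx : ¬ ∃ x, Z.D t x ≠ 0 := fun h => hC2 ⟨hC, t, rfl, h⟩
    by_cases h1 : ConjClasses.map Z.pi (ConjClasses.mk t) ∈ ConjClasses.map Z.pi '' F₂
    · exact Or.inr h1
    left
    have h2 := (hconj t t ht hx hx rfl).2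
    refine ⟨?_, Z.pi t, rfl, h2⟩
    rw [htau, tsum_classes_single he Z.pi _ (ConjClasses.mk t) rfl]
    · exact hC
    intro D hD' hne
    obtain ⟨t', rfl⟩ := ConjClasses.mk_surjective D
    by_contra h5
    by_cases hx' : ∃ x, Z.D t' x ≠ 0
    · exact h1 ⟨_, ⟨h5, t', rfl, hx'⟩, hD'⟩
    · have h6 : ConjClasses.mk (Z.pi t) = ConjClasses.mk (Z.pi t') := hD'.symm
      exact hne (hconj t t' ht hx hx' h6).1.symm
  have hinjOn : Set.InjOn (ConjClasses.map Z.pi) (T \ (F₂ ∪ {ConjClasses.mk 1})) := by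
    rintro C ⟨hC, hC'⟩ D ⟨hD1, hD'⟩ h
    obtain ⟨t, rfl⟩ := ConjClasses.mk_surjective C
    obtain ⟨t', rfl⟩ := ConjClasses.mk_surjective D
    rw [Set.mem_union, not_or] at hC' hD'
    have ht : t ≠ 1 := fun h => hC'.2 (by rw [h]; rfl)
    exact (hconj t t' ht (fun h => hC'.1 ⟨hC, t, rfl, h⟩) (fun h => hD'.1 ⟨hD1, t', rfl, h⟩) h).1
  have hfin : T.Finite := by
    have h1 : (T \ (F₂ ∪ {ConjClasses.mk 1})).Finite := by
      refine Set.Finite.of_finite_image (f := ConjClasses.map Z.pi)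
        ((hF1.union (hF2.image (ConjClasses.map Z.pi))).subset ?_) hinjOn
      rintro _ ⟨C, ⟨hC, hC'⟩, rfl⟩
      rw [Set.mem_union, not_or] at hC'
      exact hsub C hC hC'.1 hC'.2
    refine (h1.union (hF2.union (Set.finite_singleton (ConjClasses.mk (1 : G))))).subset ?_
    intro C hC
    by_cases h : C ∈ F₂ ∪ {ConjClasses.mk 1}
    · exact Or.inr h
    · exact Or.inl ⟨hC, h⟩
  refine ⟨hfin.toFinset, fun C hC => ?_, fun C hC => ?_⟩
  · rw [Set.Finite.mem_toFinset] at hC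
    obtain ⟨t, rfl⟩ := ConjClasses.mk_surjective C
    refine isTorsionClass_mk.2 (by_contra fun h => hC ?_)
    exact vanish_inf Z hab n hn hD t h q e he
  · rw [Set.Finite.mem_toFinset] at hC
    exact not_not.1 hC

end

/-- The groups `F / [R, R] R ^ n`. -/
theorem magnus_cor {ι : Type u} (R : Subgroup (FreeGroup ι)) [R.Normal] (n : ℕ) (hn : n ≠ 1) :
    (∀ t : FreeGroup ι ⧸ rel R n, ¬ IsOfFinOrder t → VanishesAt t) ∧
    ((∀ (q : ℕ) (e : Matrix (Fin q) (Fin q) ((FreeGroup ι ⧸ R) → ℂ)), IsIdem e →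
      {C : ConjClasses (FreeGroup ι ⧸ R) | tau C e ≠ 0 ∧ ∃ s, ConjClasses.mk s = C ∧ s ≠ 1 ∧
        IsOfFinOrder s ∧ (orderOf s).Coprime n}.Finite) → L1Bass (FreeGroup ι ⧸ rel R n)) := by
  obtain ⟨Z, h1, h2, h3, h4⟩ := H11.rowMagnus R n hn
  exact ⟨vanish_inf Z h2 n h3 h4, bass_of_quot Z h2 h1 n h3 h4⟩

end Vale.Agent.P184.H13
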