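import Vale.Agent.P184.H13.RowR
import Vale.Agent.P184.H13.Fib
import Vale.Agent.P184.Bdl.B3

/-!
# P184: the main theorem from the rows
-/

noncomputable section

namespace Vale.Agent.P184.H13

open Vale.Agent.P184 (IsIdem tau L1Bass VanishesAt toFn exists_decay)

universe u v w

section

attribute [local instance] Matrix.linftyOpNormedRing Matrix.linftyOpNormedAlgebra

variable {G : Type u} {Q : Type v} {A : Type w} [Group G] [Group Q] [AddCommGroup A]

theorem norm_le_linfty {q : ℕ} (M : Matrix (Fin q) (Fin q) ℂ) (i j : Fin q) : ‖M i j‖ ≤ ‖M‖ := by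
  rw [Matrix.linfty_opNorm_def]
  have h1 : ‖M i j‖₊ ≤ ∑ k, ‖M i k‖₊ :=
    Finset.single_le_sum (f := fun k => ‖M i k‖₊) (fun k _ => zero_le) (Finset.mem_univ j)
  have h2 : ∑ k, ‖M i k‖₊ ≤ Finset.univ.sup fun i => ∑ k, ‖M i k‖₊ :=
    Finset.le_sup (f := fun i => ∑ k, ‖M i k‖₊) (Finset.mem_univ i)
  exact_mod_cast h1.trans h2

theorem len_nonneg (Z : Coc G Q A) (g : G) : 0 ≤ len Z g := Nat.cast_nonneg _

/-- replacing an idempotent by a weighted summable one -/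
theorem exists_wsum (hK : RowK2.{u, v, w}) (Z : Coc G Q A) {q : ℕ}
    (e : Matrix (Fin q) (Fin q) (G → ℂ)) (he : IsIdem e) :
    ∃ f : Matrix (Fin q) (Fin q) (G → ℂ), IsIdem f ∧ WSum Z f ∧ ∀ C, tau C f = tau C e := by
  obtain ⟨ε, hε, f, hf, hdec, htau⟩ :=
    exists_decay (len Z) (len_nonneg Z) (hK Z).1 e he
  refine ⟨f, hf, fun i j => ?_, htau⟩
  refine Summable.of_nonneg_of_le
    (fun g => mul_nonneg (norm_nonneg _) (by linarith [len_nonneg Z g])) (fun g => ?_)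
    (hdec.mul_left (1 + 1 / ε))
  have h0 := len_nonneg Z g
  have h1 : ‖f i j g‖ ≤ ‖toFn f g‖ := norm_le_linfty (toFn f g) i j
  have h2 : ε * len Z g + 1 ≤ Real.exp (ε * len Z g) := Real.add_one_le_exp _
  have h3 : 1 + len Z g ≤ (1 + 1 / ε) * Real.exp (ε * len Z g) := by
    have h4 : (1 + 1 / ε) * (ε * len Z g + 1) = 1 + len Z g + (ε * len Z g + 1 / ε) := by
      field_simp
      ring
    have h5 : (1 + 1 / ε) * (ε * len Z g + 1) ≤ (1 + 1 / ε) * Real.exp (ε * len Z g) :=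
      mul_le_mul_of_nonneg_left h2 (by positivity)
    have h6 : 0 ≤ ε * len Z g + 1 / ε := by positivity
    linarith
  calc ‖f i j g‖ * (1 + len Z g) ≤ ‖toFn f g‖ * ((1 + 1 / ε) * Real.exp (ε * len Z g)) :=
        mul_le_mul h1 h3 (by linarith) (norm_nonneg _)
    _ = (1 + 1 / ε) * (‖toFn f g‖ * Real.exp (ε * len Z g)) := by ring

end

section

variable {G : Type u} {Q : Type v} {A : Type w} [Group G] [Group Q] [AddCommGroup A]

/-- the translated cocycle -/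
def Coc.shift (Z : Coc G Q A) (x : Q) : Coc G Q A where
  pi := Z.pi
  c g p := Z.c g (p * x)
  fin g := (Z.fin g).preimage (mul_left_injective x).injOn
  mul g h p := by rw [Z.mul, mul_assoc]

theorem vanishes (hF : RowFour.{max u w, u}) (hK1 : RowK1.{u, v, w}) (hK2 : RowK2.{u, v, w})
    (hK3 : RowK3.{u, v, w}) (hR : RowR.{u, v, w}) (Z : Coc G Q A)
    (hker : ∀ a b, Z.pi a = 1 → Z.pi b = 1 → Commute a b) {t : G} (ht : ¬ IsOfFinOrder t)
    {x : Q} (hx : Z.D t x ≠ 0) : VanishesAt t := by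
  intro q e he
  obtain ⟨f, hf, hw, htau⟩ := exists_wsum hK2 (Z.shift x) e he
  have hmem : t ∈ Hs (Z.shift x) ((Z.shift x).pi t) := Subgroup.mem_zpowers _
  have hcp : cp (Z.shift x) ((Z.shift x).pi t) t ((1 : G) : G ⧸ Hs (Z.shift x)
      ((Z.shift x).pi t)) ≠ 0 := by
    rw [((hK2 (Z.shift x)).2 _).2.2.2.2.1 t]
    exact hx
  obtain ⟨hs, h3⟩ := hK3 (Z.shift x) hker q f hw ((Z.shift x).pi t)
  obtain ⟨n, hn, h4⟩ := h3 t hmem rfl hcp
  have h5 := (coeff hR hF (Z.shift x) hf hw ((Z.shift x).pi t) hs).1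
    (Abelianization.of ⟨t, hmem⟩, Multiplicative.ofAdd (cp (Z.shift x) ((Z.shift x).pi t) t
      ((1 : G) : G ⧸ Hs (Z.shift x) ((Z.shift x).pi t)))) (fun h => hcp (by simpa using h))
    (fun h => (hK1 (Z.shift x) hker t hmem).2 ht h.fst)
  rw [h5] at h4
  rw [← htau]
  have hn' : (n : ℂ) ≠ 0 := by exact_mod_cast hn.ne'
  exact (mul_eq_zero.1 h4.symm).resolve_left hn'

end

/-- the main theorem from the rows -/
theorem main_of (hI : RowIntegral.{u}) (hU : RowUniq.{max u w, u}) (hF : RowFour.{max u w, u})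
    (hK1 : RowK1.{u, v, w}) (hK2 : RowK2.{u, v, w}) (hK3 : RowK3.{u, v, w})
    (hK4 : RowK4.{u, v, w}) : Main.{u, v, w} := by
  have hR : RowR.{u, v, w} := rowR hI hK2
  intro G Q A _ _ _ Z hker
  refine ⟨fun t ht ⟨x, hx⟩ => vanishes hF hK1 hK2 hK3 hR Z hker ht hx, fun hsurj q e he => ?_⟩
  obtain ⟨f, hf, hw, htau⟩ := exists_wsum hK2 Z e he
  have := hK4 hR hK1 hK2 hK3 hU hF Z hker hsurj q f hf hw
  refine this.subset ?_
  rintro C ⟨hC, h⟩
  exact ⟨by rw [htau]; exact hC, h⟩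

end Vale.Agent.P184.H13
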