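import Vale.Agent.P184.H444.GitT
import Vale.Agent.P184.H788.ProdN

/-!
# P184: abelian-by-finite groups are nice
-/

namespace Vale.Agent.P184.H13

open Vale.Agent.P184

theorem isAmenable_of_comm {M : Type*} [Group M] (h : ∀ a b : M, a * b = b * a) :
    Vale.Agent.P184.IsAmenable M := by
  letI : CommGroup M := { (inferInstance : Group M) with mul_comm := h }
  exact H444.Fol.amen_of_folner (H444.Fol.isAmenable_of_commGroup M)

theorem isAmenable_va {L : Type*} [Group L] (M : Subgroup L) [M.Normal] [M.FiniteIndex]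
    (hM : ∀ a ∈ M, ∀ b ∈ M, a * b = b * a) : Vale.Agent.P184.IsAmenable L := by
  have h1 : Finite (L ⧸ M) := inferInstance
  refine isAmenable_of_ker (QuotientGroup.mk' M) ?_ isAmenable_of_finite
  rw [QuotientGroup.ker_mk']
  exact isAmenable_of_comm fun a b => Subtype.ext (hM a a.2 b b.2)

theorem nice_va {L : Type*} [Group L] (M : Subgroup L) [M.Normal] [M.FiniteIndex]
    (hM : ∀ a ∈ M, ∀ b ∈ M, a * b = b * a) : W.Nice L := by
  have h1 := isAmenable_va M hM
  have h2 : Vale.Agent.P184.IsAmenable ((⊤ : Subgroup L) ⧸ (⊥ : Subgroup (⊤ : Subgroup L))) :=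
    IsAmenable.of_surjective ((QuotientGroup.mk' (⊥ : Subgroup (⊤ : Subgroup L))).comp
      (Subgroup.topEquiv (G := L)).symm.toMonoidHom)
      ((QuotientGroup.mk'_surjective _).comp (Subgroup.topEquiv (G := L)).symm.surjective) h1
  have h3 := V.amenable_coAmenable (⊥ : Subgroup (⊤ : Subgroup L)) h2
  rw [Subgroup.map_bot] at h3
  exact W.nice_of_almostAmen (Or.inl h3)

end Vale.Agent.P184.H13
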