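import Vale.Agent.P184.H13.Rows

/-!
# P184: monomial operators on `ℓ¹(X × Fin q)`
-/

noncomputable section

namespace Vale.Agent.P184.H13

open scoped Topology ENNReal

section Basic

variable {Y : Type*}

theorem E_summable (v : E Y) : Summable fun y => ‖v y‖ := by
  have h := v.2.summable (by norm_num)
  simpa only [ENNReal.toReal_one, Real.rpow_one] using h

theorem E_norm (v : E Y) : ‖v‖ = ∑' y, ‖v y‖ := by
  refine (lp.norm_eq_tsum_rpow (by norm_num) v).trans ?_
  simp only [ENNReal.toReal_one, Real.rpow_one, ne_eq, one_ne_zero, not_false_eq_true, div_self]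

/-- constructor -/
def Emk (f : Y → ℂ) (hf : Summable fun y => ‖f y‖) : E Y :=
  ⟨f, memℓp_gen (by simpa using hf)⟩

theorem Emk_apply (f : Y → ℂ) (hf : Summable fun y => ‖f y‖) (y : Y) : Emk f hf y = f y := rfl

theorem E_ext {v w : E Y} (h : ∀ y, v y = w y) : v = w := lp.ext (funext h)

theorem co_apply (y : Y) (v : E Y) : co y v = v y := rfl

theorem norm_co (y : Y) : ‖co y‖ ≤ 1 := LinearMap.mkContinuous_norm_le _ zero_le_one _

open Classical in
theorem dl_apply (y z : Y) : dl y z = if z = y then 1 else 0 := by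
  unfold dl
  rw [lp.single_apply]
  by_cases h : z = y
  · subst h; simp
  · simp [h]

theorem dl_self (y : Y) : dl y y = 1 := by classical rw [dl_apply, if_pos rfl]

theorem norm_dl (y : Y) : ‖dl y‖ ≤ 1 := by
  classical
  unfold dl
  rw [lp.norm_single (by norm_num)]
  simp

theorem norm_apply_le (v : E Y) (y : Y) : ‖v y‖ ≤ ‖v‖ := lp.norm_apply_le_norm one_ne_zero v y

end Basic

section Mono

variable {X : Type*} {q : ℕ}

/-- sum of the absolute values of the entries -/
def sm (m : Matrix (Fin q) (Fin q) ℂ) : ℝ := ∑ i, ∑ j, ‖m i j‖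

theorem sm_nonneg (m : Matrix (Fin q) (Fin q) ℂ) : 0 ≤ sm m :=
  Finset.sum_nonneg fun _ _ => Finset.sum_nonneg fun _ _ => norm_nonneg _

theorem fib_summable (s : Equiv.Perm X) (v : E (X × Fin q)) (j : Fin q) :
    Summable fun z => ‖v (s z, j)‖ := by
  have h := E_summable v
  have h2 : Function.Injective fun z : X => (s z, j) := fun a b hab =>
    s.injective (Prod.mk.inj hab).1
  exact h.comp_injective h2

theorem fib_tsum (s : Equiv.Perm X) (v : E (X × Fin q)) (j : Fin q) :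
    ∑' z, ‖v (s z, j)‖ ≤ ‖v‖ := by
  have h := E_summable v
  have h2 : Function.Injective fun z : X => (s z, j) := fun a b hab =>
    s.injective (Prod.mk.inj hab).1
  rw [E_norm]
  exact (fib_summable s v j).tsum_le_tsum_of_inj _ h2 (fun _ _ => norm_nonneg _)
    (fun _ => le_rfl) h

/-- the values of the monomial operator -/
def Ufn (a : X → ℂ) (s : Equiv.Perm X) (m : Matrix (Fin q) (Fin q) ℂ) (v : X × Fin q → ℂ)
    (y : X × Fin q) : ℂ := a (s.symm y.1) * ∑ j, m y.2 j * v (s.symm y.1, j)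

theorem Ufn_norm {a : X → ℂ} {B : ℝ} (ha : ∀ x, ‖a x‖ ≤ B) (s : Equiv.Perm X)
    (m : Matrix (Fin q) (Fin q) ℂ) (v : X × Fin q → ℂ) (z : X) (i : Fin q) :
    ‖Ufn a s m v (z, i)‖ ≤ ∑ j, B * ‖m i j‖ * ‖v (s.symm z, j)‖ := by
  unfold Ufn
  rw [norm_mul]
  have h1 : ‖∑ j, m i j * v (s.symm z, j)‖ ≤ ∑ j, ‖m i j‖ * ‖v (s.symm z, j)‖ :=
    (norm_sum_le _ _).trans (Finset.sum_le_sum fun j _ => (norm_mul_le _ _))
  calc ‖a (s.symm z)‖ * ‖∑ j, m i j * v (s.symm z, j)‖
      ≤ B * ∑ j, ‖m i j‖ * ‖v (s.symm z, j)‖ :=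
        mul_le_mul (ha _) h1 (norm_nonneg _) ((norm_nonneg _).trans (ha (s.symm z)))
    _ = ∑ j, B * ‖m i j‖ * ‖v (s.symm z, j)‖ := by
        rw [Finset.mul_sum]; exact Finset.sum_congr rfl fun j _ => by ring

theorem Ufn_summable {a : X → ℂ} {B : ℝ} (ha : ∀ x, ‖a x‖ ≤ B) (s : Equiv.Perm X)
    (m : Matrix (Fin q) (Fin q) ℂ) (v : E (X × Fin q)) :
    (Summable fun y => ‖Ufn a s m v y‖) ∧ ∑' y, ‖Ufn a s m v y‖ ≤ B * sm m * ‖v‖ := by
  have hfib : ∀ i : Fin q, Summable fun z => ‖Ufn a s m v (z, i)‖ := fun i =>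
    Summable.of_nonneg_of_le (fun _ => norm_nonneg _) (fun z => Ufn_norm ha s m v z i)
      (summable_sum fun j _ => (fib_summable s.symm v j).mul_left _)
  have hle : ∀ i : Fin q, ∑' z, ‖Ufn a s m v (z, i)‖ ≤ ∑ j, B * ‖m i j‖ * ‖v‖ := by
    intro i
    refine ((hfib i).tsum_le_tsum (fun z => Ufn_norm ha s m v z i)
      (summable_sum fun j _ => (fib_summable s.symm v j).mul_left _)).trans ?_
    rw [Summable.tsum_finsetSum fun j _ => (fib_summable s.symm v j).mul_left _]
    refine Finset.sum_le_sum fun j _ => ?_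
    rw [tsum_mul_left]
    rcases isEmpty_or_nonempty X with hX | ⟨⟨x⟩⟩
    · have h0 : ‖v‖ = 0 := by
        rw [E_norm]
        exact (tsum_congr fun y => (hX.false y.1).elim).trans tsum_zero
      rw [tsum_empty, h0]
    · refine mul_le_mul_of_nonneg_left (fib_tsum s.symm v j) ?_
      exact mul_nonneg ((norm_nonneg _).trans (ha x)) (norm_nonneg _)
  have hs : Summable fun y : Fin q × X => ‖Ufn a s m v (y.2, y.1)‖ := by
    rw [summable_prod_of_nonneg fun _ => norm_nonneg _]
    exact ⟨hfib, (hasSum_fintype _).summable⟩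
  have hs2 : Summable fun y => ‖Ufn a s m v y‖ := (Equiv.prodComm _ _).summable_iff.1 hs
  refine ⟨hs2, ?_⟩
  have h1 : ∑' y, ‖Ufn a s m v y‖ = ∑' y : Fin q × X, ‖Ufn a s m v (y.2, y.1)‖ :=
    ((Equiv.prodComm _ _).tsum_eq (fun y => ‖Ufn a s m v y‖)).symm
  rw [h1, hs.tsum_prod, tsum_fintype]
  refine (Finset.sum_le_sum fun i _ => hle i).trans (le_of_eq ?_)
  unfold sm
  rw [Finset.mul_sum, Finset.sum_mul]
  refine Finset.sum_congr rfl fun i _ => ?_
  rw [Finset.mul_sum, Finset.sum_mul]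

/-- bounded functions -/
structure Bd (X : Type*) where
  /-- the function -/
  a : X → ℂ
  /-- the bound -/
  B : ℝ
  le : ∀ x, ‖a x‖ ≤ B
  nn : 0 ≤ B

/-- the monomial operator -/
def U (a : Bd X) (s : Equiv.Perm X) (m : Matrix (Fin q) (Fin q) ℂ) :
    E (X × Fin q) →L[ℂ] E (X × Fin q) :=
  LinearMap.mkContinuous
    { toFun := fun v => Emk (Ufn a.a s m v) (Ufn_summable a.le s m v).1
      map_add' := fun v w => E_ext fun y => by
        change Ufn a.a s m (v + w) y = Ufn a.a s m v y + Ufn a.a s m w y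
        unfold Ufn
        rw [← mul_add, ← Finset.sum_add_distrib]
        congr 1
        refine Finset.sum_congr rfl fun j _ => ?_
        rw [← mul_add]; rfl
      map_smul' := fun c v => E_ext fun y => by
        change a.a (s.symm y.1) * ∑ j, m y.2 j * (c * v (s.symm y.1, j)) =
          c * (a.a (s.symm y.1) * ∑ j, m y.2 j * v (s.symm y.1, j))
        have h : ∑ j, m y.2 j * (c * v (s.symm y.1, j)) =
            c * ∑ j, m y.2 j * v (s.symm y.1, j) := by
          rw [Finset.mul_sum]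
          refine Finset.sum_congr rfl fun j _ => ?_
          ring
        rw [h]
        ring }
    (a.B * sm m) (fun v => by
      change ‖Emk (Ufn a.a s m v) (Ufn_summable a.le s m v).1‖ ≤ _
      rw [E_norm]
      exact (Ufn_summable a.le s m v).2)

theorem U_apply (a : Bd X) (s : Equiv.Perm X) (m : Matrix (Fin q) (Fin q) ℂ) (v : E (X × Fin q))
    (y : X × Fin q) : U a s m v y = a.a (s.symm y.1) * ∑ j, m y.2 j * v (s.symm y.1, j) := rfl

theorem norm_U (a : Bd X) (s : Equiv.Perm X) (m : Matrix (Fin q) (Fin q) ℂ) :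
    ‖U a s m‖ ≤ a.B * sm m :=
  LinearMap.mkContinuous_norm_le _ (mul_nonneg a.nn (sm_nonneg m)) _

theorem norm_co_U (a : Bd X) (s : Equiv.Perm X) (m : Matrix (Fin q) (Fin q) ℂ) (z : X)
    (i : Fin q) : ‖(co (z, i)).comp (U a s m)‖ ≤ ‖a.a (s.symm z)‖ * sm m := by
  refine ContinuousLinearMap.opNorm_le_bound _ (mul_nonneg (norm_nonneg _) (sm_nonneg m))
    fun v => ?_
  change ‖U a s m v (z, i)‖ ≤ _
  rw [U_apply, norm_mul, mul_assoc]
  refine mul_le_mul_of_nonneg_left ?_ (norm_nonneg _)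
  refine (norm_sum_le _ _).trans ?_
  calc ∑ j : Fin q, ‖m i j * v (s.symm z, j)‖ ≤ ∑ j : Fin q, ‖m i j‖ * ‖v‖ :=
        Finset.sum_le_sum fun j _ => (norm_mul_le _ _).trans
          (mul_le_mul_of_nonneg_left (norm_apply_le v _) (norm_nonneg _))
    _ = (∑ j : Fin q, ‖m i j‖) * ‖v‖ := by rw [Finset.sum_mul]
    _ ≤ sm m * ‖v‖ := by
        refine mul_le_mul_of_nonneg_right ?_ (norm_nonneg _)
        exact Finset.single_le_sum (f := fun i : Fin q => ∑ j : Fin q, ‖m i j‖)
          (fun _ _ => Finset.sum_nonneg fun _ _ => norm_nonneg _) (Finset.mem_univ i)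

open Classical in
theorem U_dl (a : Bd X) (s : Equiv.Perm X) (m : Matrix (Fin q) (Fin q) ℂ) (z : X) (i : Fin q) :
    U a s m (dl (z, i)) (z, i) = if s z = z then a.a z * m i i else 0 := by
  rw [U_apply]
  by_cases h : s z = z
  · have h2 : s.symm z = z := by rw [Equiv.symm_apply_eq, h]
    rw [if_pos h, h2]
    congr 1
    rw [Finset.sum_eq_single i]
    · rw [dl_self, mul_one]
    · intro j _ hj
      rw [dl_apply, if_neg (by intro h; exact hj (Prod.mk.inj h).2), mul_zero]
    · intro h; exact absurd (Finset.mem_univ i) h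
  · have h2 : s.symm z ≠ z := fun h3 => h (by rw [Equiv.symm_apply_eq] at h3; exact h3.symm)
    rw [if_neg h, Finset.sum_eq_zero, mul_zero]
    intro j _
    rw [dl_apply, if_neg (by intro h; exact h2 (Prod.mk.inj h).1), mul_zero]

end Mono

end Vale.Agent.P184.H13
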