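import Vale.Agent.P184.H13.Op
import Vale.Agent.P184.Bdl.B1

/-!
# P184: pairs of monomial representations
-/

noncomputable section

namespace Vale.Agent.P184.H13

open scoped Topology ENNReal

section

variable {G X : Type*} [Group G] [MulAction G X] {q : ℕ}

/-- unimodular cocycles -/
structure Uc (G X : Type*) [Group G] [MulAction G X] where
  /-- the function -/
  a : G → X → ℂ
  norm : ∀ g x, ‖a g x‖ = 1
  mul : ∀ g h x, a (g * h) x = a g (h • x) * a h x

/-- the bounded function -/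
def Uc.bd (α : Uc G X) (g : G) : Bd X := ⟨α.a g, 1, fun x => (α.norm g x).le, zero_le_one⟩

/-- the monomial operator of `g` and `m` -/
def V (α : Uc G X) (g : G) (m : Matrix (Fin q) (Fin q) ℂ) : E (X × Fin q) →L[ℂ] E (X × Fin q) :=
  U (α.bd g) (MulAction.toPerm g) m

theorem V_apply (α : Uc G X) (g : G) (m : Matrix (Fin q) (Fin q) ℂ) (v : E (X × Fin q))
    (y : X × Fin q) : V α g m v y = α.a g (g⁻¹ • y.1) * ∑ j, m y.2 j * v (g⁻¹ • y.1, j) := rfl

theorem V_mul (α : Uc G X) (g h : G) (m n : Matrix (Fin q) (Fin q) ℂ) :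
    V α g m * V α h n = V α (g * h) (m * n) := by
  refine ContinuousLinearMap.ext fun v => E_ext fun y => ?_
  change V α g m (V α h n v) y = _
  rw [V_apply, V_apply, α.mul]
  have h1 : h • (g * h)⁻¹ • y.1 = g⁻¹ • y.1 := by
    rw [← mul_smul]; congr 1; group
  have h2 : h⁻¹ • g⁻¹ • y.1 = (g * h)⁻¹ • y.1 := by rw [← mul_smul, mul_inv_rev]
  have h3 : ∀ j, V α h n v (g⁻¹ • y.1, j) =
      α.a h ((g * h)⁻¹ • y.1) * ∑ k, n j k * v ((g * h)⁻¹ • y.1, k) := by
    intro j
    rw [V_apply]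
    dsimp only
    rw [h2]
  simp only [h3]
  rw [h1, mul_assoc]
  congr 1
  have h4 : ∀ j, m y.2 j * (α.a h ((g * h)⁻¹ • y.1) * ∑ k, n j k * v ((g * h)⁻¹ • y.1, k)) =
      α.a h ((g * h)⁻¹ • y.1) * ∑ k, m y.2 j * n j k * v ((g * h)⁻¹ • y.1, k) := by
    intro j
    rw [mul_left_comm, Finset.mul_sum]
    congr 1
    exact Finset.sum_congr rfl fun k _ => by ring
  simp only [h4]
  rw [← Finset.mul_sum]
  congr 1
  rw [Finset.sum_comm]
  refine Finset.sum_congr rfl fun k _ => ?_
  rw [Matrix.mul_apply, Finset.sum_mul]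

attribute [local instance] Matrix.linftyOpNormedRing Matrix.linftyOpNormedAlgebra

theorem sm_le (m : Matrix (Fin q) (Fin q) ℂ) : sm m ≤ (q * q : ℝ) * ‖m‖ := by
  unfold sm
  calc ∑ i : Fin q, ∑ j : Fin q, ‖m i j‖ ≤ ∑ _i : Fin q, ∑ _j : Fin q, ‖m‖ :=
        Finset.sum_le_sum fun i _ => Finset.sum_le_sum fun j _ =>
          Vale.Agent.P184.norm_entry_le m i j
    _ = (q * q : ℝ) * ‖m‖ := by
        simp only [Finset.sum_const, Finset.card_univ, Fintype.card_fin, nsmul_eq_mul]
        ring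

theorem V_add (α : Uc G X) (g : G) (m n : Matrix (Fin q) (Fin q) ℂ) :
    V α g (m + n) = V α g m + V α g n := by
  refine ContinuousLinearMap.ext fun v => E_ext fun y => ?_
  change V α g (m + n) v y = V α g m v y + V α g n v y
  rw [V_apply, V_apply, V_apply, ← mul_add, ← Finset.sum_add_distrib]
  congr 1
  refine Finset.sum_congr rfl fun j _ => ?_
  rw [Matrix.add_apply, add_mul]

theorem V_smul (α : Uc G X) (g : G) (c : ℂ) (m : Matrix (Fin q) (Fin q) ℂ) :
    V α g (c • m) = c • V α g m := by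
  refine ContinuousLinearMap.ext fun v => E_ext fun y => ?_
  change V α g (c • m) v y = c * V α g m v y
  have h : ∑ j, (c • m) y.2 j * v (g⁻¹ • y.1, j) = c * ∑ j, m y.2 j * v (g⁻¹ • y.1, j) := by
    rw [Finset.mul_sum]
    refine Finset.sum_congr rfl fun j _ => ?_
    rw [Matrix.smul_apply, smul_eq_mul, mul_assoc]
  rw [V_apply, V_apply, h]
  ring

theorem norm_V (α : Uc G X) (g : G) (m : Matrix (Fin q) (Fin q) ℂ) : ‖V α g m‖ ≤ sm m := by
  have := norm_U (α.bd g) (MulAction.toPerm g) m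
  rwa [show (α.bd g).B = 1 from rfl, one_mul] at this

/-- `V` as a continuous linear map -/
def Vl (α : Uc G X) (g : G) :
    Matrix (Fin q) (Fin q) ℂ →L[ℂ] (E (X × Fin q) →L[ℂ] E (X × Fin q)) :=
  LinearMap.mkContinuous
    { toFun := fun m => V α g m
      map_add' := V_add α g
      map_smul' := fun c m => V_smul α g c m } (q * q : ℝ)
    (fun m => (norm_V α g m).trans (sm_le m))

theorem Vl_apply (α : Uc G X) (g : G) (m : Matrix (Fin q) (Fin q) ℂ) : Vl α g m = V α g m := rfl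

/-- the representation of `ℓ¹(G)` -/
def rho (α : Uc G X) (F : G → Matrix (Fin q) (Fin q) ℂ) :
    E (X × Fin q) →L[ℂ] E (X × Fin q) := ∑' g, V α g (F g)

theorem V_summable (α : Uc G X) {F : G → Matrix (Fin q) (Fin q) ℂ}
    (hF : Summable fun g => sm (F g)) : Summable fun g => ‖V α g (F g)‖ :=
  Summable.of_nonneg_of_le (fun _ => norm_nonneg _) (fun g => norm_V α g (F g)) hF

theorem rho_idem (α : Uc G X) {e : Matrix (Fin q) (Fin q) (G → ℂ)} (he : IsIdem e) :
    rho α (toFn e) * rho α (toFn e) = rho α (toFn e) := by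
  have hF : Summable fun g => sm (toFn e g) :=
    summable_sum fun i _ => summable_sum fun j _ => he.1 i j
  unfold rho
  rw [tsum_conv _ (V_summable α hF)]
  refine tsum_congr fun k => ?_
  have h1 : ∀ h, V α h (toFn e h) * V α (h⁻¹ * k) (toFn e (h⁻¹ * k)) =
      Vl α k (toFn e h * toFn e (h⁻¹ * k)) := by
    intro h
    rw [V_mul, Vl_apply, mul_inv_cancel_left]
  rw [tsum_congr h1]
  have h2 := (Vl α k).map_tsum (conv_summable (toFn_summable he) k)
  rw [← h2, toFn_conv he k, Vl_apply]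

end

end Vale.Agent.P184.H13
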