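import Vale.Agent.P184.H13.Rows

/-!
# P184: the action on `G ⧸ H`, the rows of the main theorem
-/

namespace Vale.Agent.P184.H13

open Vale.Agent.P184 (IsIdem tau L1Bass VanishesAt)

section

variable {G Q A : Type*} [Group G] [Group Q] [AddCommGroup A] (Z : Coc G Q A) (s : Q)

/-- the preimage of the cyclic group generated by `s` -/
def Hs : Subgroup G := (Subgroup.zpowers s).comap Z.pi

theorem mem_Hs {t : G} : t ∈ Hs Z s ↔ Z.pi t ∈ Subgroup.zpowers s := Iff.rfl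

/-- the cocycle on `G ⧸ H` -/
noncomputable def cp (g : G) (x : G ⧸ Hs Z s) : A :=
  ∑ᶠ u : Subgroup.zpowers s, Z.c g (Z.pi x.out * u)

theorem hh_mem (g : G) (x : G ⧸ Hs Z s) : (g • x).out⁻¹ * g * x.out ∈ Hs Z s := by
  rw [mul_assoc, ← QuotientGroup.eq, QuotientGroup.out_eq', ← smul_eq_mul,
    ← MulAction.Quotient.smul_mk, QuotientGroup.out_eq']

/-- the element of `H` attached to `g` and `x` -/
noncomputable def hh (g : G) (x : G ⧸ Hs Z s) : Hs Z s := ⟨(g • x).out⁻¹ * g * x.out, hh_mem Z s g x⟩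

theorem hh_mul (g h : G) (x : G ⧸ Hs Z s) : hh Z s (g * h) x = hh Z s g (h • x) * hh Z s h x := by
  refine Subtype.ext ?_
  change ((g * h) • x).out⁻¹ * (g * h) * x.out =
    (g • h • x).out⁻¹ * g * (h • x).out * ((h • x).out⁻¹ * h * x.out)
  rw [mul_smul]
  group

/-- fixed points with nonzero charge -/
def JJ : Type _ := {p : G × (G ⧸ Hs Z s) // p.1 • p.2 = p.2 ∧ cp Z s p.1 p.2 ≠ 0}

/-- the invariant of a fixed point -/
noncomputable def mu (j : JJ Z s) : Abelianization (Hs Z s) × Multiplicative A :=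
  (Abelianization.of (hh Z s j.1.1 j.1.2), Multiplicative.ofAdd (cp Z s j.1.1 j.1.2))

/-- the weight of a fixed point -/
def wt {q : ℕ} (e : Matrix (Fin q) (Fin q) (G → ℂ)) (j : JJ Z s) : ℂ := ∑ i, e i i j.1.1

/-- the length function -/
noncomputable def len (g : G) : ℝ := ({p | Z.c g p ≠ 0} : Set Q).ncard

/-- `e` is summable with the weight `1 + len` -/
def WSum {q : ℕ} (e : Matrix (Fin q) (Fin q) (G → ℂ)) : Prop :=
  ∀ i j, Summable fun g => ‖e i j g‖ * (1 + len Z g)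

end

/-- Row K1 (group theory): `H ⊇ K` abelian, `H / K` cyclic. -/
def RowK1.{u, v, w} : Prop :=
  ∀ {G : Type u} {Q : Type v} {A : Type w} [Group G] [Group Q] [AddCommGroup A] (Z : Coc G Q A),
    (∀ a b, Z.pi a = 1 → Z.pi b = 1 → Commute a b) →
    ∀ (t : G) (ht : t ∈ Hs Z (Z.pi t)),
      (∀ h : Hs Z (Z.pi t), Abelianization.of h = Abelianization.of (⟨t, ht⟩ : Hs Z (Z.pi t)) →
        IsConj t (h : G)) ∧
      (¬ IsOfFinOrder t → ¬ IsOfFinOrder (Abelianization.of (⟨t, ht⟩ : Hs Z (Z.pi t))))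

/-- Row K2 (the cocycle on `G ⧸ H`). -/
def RowK2.{u, v, w} : Prop :=
  ∀ {G : Type u} {Q : Type v} {A : Type w} [Group G] [Group Q] [AddCommGroup A] (Z : Coc G Q A),
    (∀ g h, len Z (g * h) ≤ len Z g + len Z h) ∧
    ∀ s : Q,
      (∀ g h x, cp Z s (g * h) x = cp Z s g (h • x) + cp Z s h x) ∧
      (∀ g, {x | cp Z s g x ≠ 0}.Finite) ∧
      (∀ g, (({x | cp Z s g x ≠ 0} : Set _).ncard : ℝ) ≤ len Z g) ∧
      (∀ (g p : G), g • (p : G ⧸ Hs Z s) = (p : G ⧸ Hs Z s) → ∀ y : G, y = p⁻¹ * g * p →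
        cp Z s g (p : G ⧸ Hs Z s) = cp Z s y ((1 : G) : G ⧸ Hs Z s)) ∧
      (∀ g, cp Z s g ((1 : G) : G ⧸ Hs Z s) = ∑ᶠ u : Subgroup.zpowers s, Z.c g u) ∧
      (∀ g (x : G ⧸ Hs Z s), cp Z s g x ≠ 0 → ∃ u ∈ Subgroup.zpowers s,
        Z.c g (Z.pi x.out * u) ≠ 0)

/-- Row K3 (the coefficient at `t`), may use K1 and K2. -/
def RowK3.{u, v, w} : Prop :=
  ∀ {G : Type u} {Q : Type v} {A : Type w} [Group G] [Group Q] [AddCommGroup A] (Z : Coc G Q A),
    (∀ a b, Z.pi a = 1 → Z.pi b = 1 → Commute a b) →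
    ∀ (q : ℕ) (e : Matrix (Fin q) (Fin q) (G → ℂ)), WSum Z e →
    ∀ s : Q, (Summable fun j : JJ Z s => ‖wt Z s e j‖) ∧
    ∀ (t : G) (ht : t ∈ Hs Z s), Z.pi t = s → cp Z s t ((1 : G) : G ⧸ Hs Z s) ≠ 0 →
      ∃ n : ℕ, 0 < n ∧ ∑' j : {j : JJ Z s // mu Z s j =
        (Abelianization.of ⟨t, ht⟩, Multiplicative.ofAdd (cp Z s t ((1 : G) : G ⧸ Hs Z s)))},
          wt Z s e j = n * tau (ConjClasses.mk t) e

/-- Row R (integrality of the character sums). -/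
def RowR.{u, v, w} : Prop :=
  ∀ {G : Type u} {Q : Type v} {A : Type w} [Group G] [Group Q] [AddCommGroup A] (Z : Coc G Q A)
    (q : ℕ) (e : Matrix (Fin q) (Fin q) (G → ℂ)), IsIdem e → WSum Z e →
    ∀ (s : Q) (χ : Hs Z s →* Circle) (κ : Multiplicative A →* Circle), ∃ n : ℤ,
      ∑' j : JJ Z s, wt Z s e j * ((χ (hh Z s j.1.1 j.1.2) : ℂ) *
        ((κ (Multiplicative.ofAdd (cp Z s j.1.1 j.1.2)) : ℂ) - 1)) = n

/-- Row K4 (finiteness), from R, K1, K2, K3 and the rows F. -/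
def RowK4.{u, v, w} : Prop :=
  RowR.{u, v, w} → RowK1.{u, v, w} → RowK2.{u, v, w} → RowK3.{u, v, w} →
  RowUniq.{max u w, u} → RowFour.{max u w, u} →
  ∀ {G : Type u} {Q : Type v} {A : Type w} [Group G] [Group Q] [AddCommGroup A] (Z : Coc G Q A),
    (∀ a b, Z.pi a = 1 → Z.pi b = 1 → Commute a b) → Function.Surjective Z.pi →
    ∀ (q : ℕ) (e : Matrix (Fin q) (Fin q) (G → ℂ)), IsIdem e → WSum Z e →
      {C : ConjClasses G | tau C e ≠ 0 ∧ ∃ t, ConjClasses.mk t = C ∧ ∃ x, Z.D t x ≠ 0}.Finite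

end Vale.Agent.P184.H13
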