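import Vale.Agent.P184.H13.Tr
import Vale.Agent.P184.H13.Rows2

/-!
# P184: integrality of the character sums
-/

noncomputable section

namespace Vale.Agent.P184.H13

open scoped Topology ENNReal

universe u v w

section

variable {G : Type u} {Q : Type v} {A : Type w} [Group G] [Group Q] [AddCommGroup A]

/-- the cocycle of a character of `H` -/
def ucA (Z : Coc G Q A) (s : Q) (χ : Hs Z s →* Circle) : Uc G (G ⧸ Hs Z s) where
  a g x := (χ (hh Z s g x) : ℂ)
  norm g x := Circle.norm_coe _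
  mul g h x := by rw [hh_mul, map_mul, Circle.coe_mul]

/-- the twisted cocycle -/
def ucB (Z : Coc G Q A) (s : Q) (χ : Hs Z s →* Circle) (κ : Multiplicative A →* Circle)
    (hc : ∀ g h x, cp Z s (g * h) x = cp Z s g (h • x) + cp Z s h x) : Uc G (G ⧸ Hs Z s) where
  a g x := (χ (hh Z s g x) : ℂ) * (κ (Multiplicative.ofAdd (cp Z s g x)) : ℂ)
  norm g x := by rw [norm_mul, Circle.norm_coe, Circle.norm_coe, one_mul]
  mul g h x := by
    rw [hh_mul, map_mul, Circle.coe_mul, hc, ofAdd_add, map_mul, Circle.coe_mul]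
    ring

theorem sm_summable {q : ℕ} {e : Matrix (Fin q) (Fin q) (G → ℂ)} (he : IsIdem e) :
    Summable fun g => sm (toFn e g) :=
  summable_sum fun i _ => summable_sum fun j _ => he.1 i j

theorem sm_len_summable {Z : Coc G Q A} {q : ℕ} {e : Matrix (Fin q) (Fin q) (G → ℂ)}
    (hw : WSum Z e) : Summable fun g => sm (toFn e g) * len Z g := by
  have h : ∀ g, sm (toFn e g) * len Z g = ∑ i, ∑ j, ‖e i j g‖ * len Z g := by
    intro g
    unfold sm
    rw [Finset.sum_mul]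
    refine Finset.sum_congr rfl fun i _ => ?_
    rw [Finset.sum_mul]
    rfl
  simp only [h]
  refine summable_sum fun i _ => summable_sum fun j _ => ?_
  refine Summable.of_nonneg_of_le (fun g => mul_nonneg (norm_nonneg _) (Nat.cast_nonneg _))
    (fun g => ?_) (hw i j)
  refine mul_le_mul_of_nonneg_left ?_ (norm_nonneg _)
  linarith

end

theorem rowR (hI : RowIntegral.{u}) (hK : RowK2.{u, v, w}) : RowR.{u, v, w} := by
  classical
  intro G Q A _ _ _ Z q e he hw s χ κ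
  obtain ⟨-, h2⟩ := hK Z
  obtain ⟨hc, hfin0, hlam0, -⟩ := h2 s
  set α := ucA Z s χ with hα
  set α' := ucB Z s χ κ hc with hα'
  have hsub : ∀ g, {x | α'.a g x ≠ α.a g x} ⊆ {x | cp Z s g x ≠ 0} := by
    intro g x hx hx0
    apply hx
    change (χ (hh Z s g x) : ℂ) * (κ (Multiplicative.ofAdd (cp Z s g x)) : ℂ) =
      (χ (hh Z s g x) : ℂ)
    rw [hx0, ofAdd_zero, map_one, Circle.coe_one, mul_one]
  have hfin : ∀ g, {x | α'.a g x ≠ α.a g x}.Finite := fun g => (hfin0 g).subset (hsub g)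
  have hlam : ∀ g, (({x | α'.a g x ≠ α.a g x} : Set _).ncard : ℝ) ≤ len Z g := fun g =>
    le_trans (by exact_mod_cast Set.ncard_le_ncard (hsub g) (hfin0 g)) (hlam0 g)
  have hF := sm_summable he
  have hFl := sm_len_summable hw
  obtain ⟨n, hn⟩ := hI (rho α (toFn e)) (rho α' (toFn e)) (rho_idem α he) (rho_idem α' he)
    (nuc_sub hfin hlam hF hFl)
  refine ⟨n, ?_⟩
  rw [← hn, (tr_sub hfin hlam hF hFl).2]
  set f : G × (G ⧸ Hs Z s) → ℂ := fun p => if p.1 • p.2 = p.2 then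
      (α'.a p.1 p.2 - α.a p.1 p.2) * ∑ i, toFn e p.1 i i else 0 with hf
  have hsupp : Function.support f ⊆ {p | p.1 • p.2 = p.2 ∧ cp Z s p.1 p.2 ≠ 0} := by
    intro p hp
    by_contra h
    apply hp
    rw [hf]
    dsimp only
    by_cases h1 : p.1 • p.2 = p.2
    · rw [if_pos h1]
      have h2 : α'.a p.1 p.2 = α.a p.1 p.2 := by
        by_contra h3
        exact h ⟨h1, hsub p.1 h3⟩
      rw [h2, sub_self, zero_mul]
    · rw [if_neg h1]
  have h3 := tsum_subtype_eq_of_support_subset hsupp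
  have h5 : ∀ p : G × (G ⧸ Hs Z s), f p = if p.1 • p.2 = p.2 then
      (α'.a p.1 p.2 - α.a p.1 p.2) * ∑ i, toFn e p.1 i i else 0 := fun p => by
    rw [hf]
  refine Eq.trans ?_ (h3.trans (tsum_congr fun p => ?_))
  swap
  · by_cases h : p.1 • p.2 = p.2
    · rw [h5 p, if_pos h, if_pos h]
    · rw [h5 p, if_neg h, if_neg h]
  refine tsum_congr fun (j : JJ Z s) => ?_
  have h4 : f j.1 = (α'.a j.1.1 j.1.2 - α.a j.1.1 j.1.2) * ∑ i, toFn e j.1.1 i i := by
    rw [hf]
    dsimp only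
    exact if_pos j.2.1
  refine Eq.trans ?_ h4.symm
  change (∑ i, e i i j.1.1) * ((χ (hh Z s j.1.1 j.1.2) : ℂ) *
        ((κ (Multiplicative.ofAdd (cp Z s j.1.1 j.1.2)) : ℂ) - 1)) =
    ((χ (hh Z s j.1.1 j.1.2) : ℂ) * (κ (Multiplicative.ofAdd (cp Z s j.1.1 j.1.2)) : ℂ) -
      (χ (hh Z s j.1.1 j.1.2) : ℂ)) * ∑ i, e i i j.1.1
  ring

end Vale.Agent.P184.H13
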