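import Vale.Agent.P184.H13.Coc
import Vale.Agent.P184.Defs

/-!
# P184: the rows (named propositions)
-/

namespace Vale.Agent.P184.H13

open Vale.Agent.P184 (IsIdem tau L1Bass VanishesAt)


/-! ### Row F (Fourier), Mathlib only -/

/-- `uniq`: the Fourier transform on a discrete abelian group is injective on `ℓ¹`. -/
def RowUniq.{u, v} : Prop :=
  ∀ {M : Type u} {J : Type v} [CommGroup M] (w : J → ℂ) (μ : J → M), (Summable fun j => ‖w j‖) →
    (∀ χ : M →* Circle, ∑' j, w j * (χ (μ j) : ℂ) = 0) →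
      ∀ m : M, ∑' j : {j // μ j = m}, w j = 0

/-- `four`: an element of `ℓ¹(M)` with integral Fourier transform is finitely supported, and
supported on the torsion elements. -/
def RowFour.{u, v} : Prop :=
  ∀ {M : Type u} {J : Type v} [CommGroup M] (w : J → ℂ) (μ : J → M), (Summable fun j => ‖w j‖) →
    (∀ χ : M →* Circle, ∃ n : ℤ, ∑' j, w j * (χ (μ j) : ℂ) = n) →
      (∀ m : M, ¬ IsOfFinOrder m → ∑' j : {j // μ j = m}, w j = 0) ∧
        {m : M | ∑' j : {j // μ j = m}, w j ≠ 0}.Finite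

/-! ### Row I (integrality), Mathlib + the Newton iteration of `Bdl/B1` -/

/-- `ℓ¹(Y)` -/
noncomputable abbrev E (Y : Type*) := lp (fun _ : Y => ℂ) 1

/-- the coordinate functional -/
noncomputable def co {Y : Type*} (y : Y) : E Y →L[ℂ] ℂ :=
  LinearMap.mkContinuous
    { toFun := fun v => v y
      map_add' := fun _ _ => rfl
      map_smul' := fun _ _ => rfl } 1 (fun v => by
        rw [one_mul]
        exact lp.norm_apply_le_norm one_ne_zero v y)

open Classical in
/-- the basis vector -/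
noncomputable def dl {Y : Type*} (y : Y) : E Y := lp.single 1 y 1

/-- nuclear operators on `ℓ¹(Y)` -/
def Nuc {Y : Type*} (K : E Y →L[ℂ] E Y) : Prop := Summable fun y => ‖(co y).comp K‖

/-- the trace of a nuclear operator -/
noncomputable def tr {Y : Type*} (K : E Y →L[ℂ] E Y) : ℂ := ∑' y, K (dl y) y

/-- `integral`: if the difference of two idempotents is nuclear, then its trace is an integer. -/
def RowIntegral.{u} : Prop :=
  ∀ {Y : Type u} (P P' : E Y →L[ℂ] E Y), P * P = P → P' * P' = P' → Nuc (P' - P) →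
    ∃ n : ℤ, tr (P' - P) = n

/-! ### Row M (Magnus embedding), Mathlib only -/

/-- `magnus` -/
def RowMagnus.{u} : Prop :=
  ∀ {ι : Type u} (R : Subgroup (FreeGroup ι)) [R.Normal] (n : ℕ), n ≠ 1 →
    ∃ Z : Coc (FreeGroup ι ⧸ rel R n) (FreeGroup ι ⧸ R) (ι →₀ ZMod n),
      Function.Surjective Z.pi ∧ (∀ a b, Z.pi a = 1 → Z.pi b = 1 → Commute a b) ∧
      (n ≠ 0 → ∀ a, Z.pi a = 1 → a ^ n = 1) ∧
      ∀ t, t ≠ 1 → (Z.pi t ≠ 1 → IsOfFinOrder (Z.pi t) → ¬ (orderOf (Z.pi t)).Coprime n) →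
        ∃ x, Z.D t x ≠ 0

/-! ### Row W (wreath products), over `Rows` and `Bdl` -/

/-- main theorem (rows F, I and the representation) -/
def Main.{u, v, w} : Prop :=
  ∀ {G : Type u} {Q : Type v} {A : Type w} [Group G] [Group Q] [AddCommGroup A] (Z : Coc G Q A),
    (∀ a b, Z.pi a = 1 → Z.pi b = 1 → Commute a b) →
    (∀ t, ¬ IsOfFinOrder t → (∃ x, Z.D t x ≠ 0) → VanishesAt t) ∧
    (Function.Surjective Z.pi → ∀ (q : ℕ) (e : Matrix (Fin q) (Fin q) (G → ℂ)), IsIdem e →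
      {C : ConjClasses G | tau C e ≠ 0 ∧ ∃ t, ConjClasses.mk t = C ∧ ∃ x, Z.D t x ≠ 0}.Finite)

/-- `wreath` -/
def RowWreath.{u, v} : Prop :=
  Main.{max u v, v, u} → ∀ {A : Type u} {Q : Type v} [AddCommGroup A] [Group Q],
    (L1Bass (Wr A Q) ↔ L1Bass Q) ∧
    (∀ t : Wr A Q, (∀ x, Wr.coc.D t x = 0) ↔ IsConj t (Wr.incl t.pt))

end Vale.Agent.P184.H13
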