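import Vale.Agent.P184.H13.Main
import Vale.Agent.P184.H553.Four
import Vale.Agent.P184.H847.RowI
import Vale.Agent.P184.H977.K1
import Vale.Agent.P184.H977.K2
import Vale.Agent.P184.H113.RowK3
import Vale.Agent.P184.H369.K4
import Vale.Agent.P184.H856.Wreath

/-!
# P184: the main theorem
-/

namespace Vale.Agent.P184.H13

/-- the main theorem -/
theorem mainThm.{u, v, w} : Main.{u, v, w} :=
  main_of H847.rowIntegral H553.rowUniq H553.rowFour H977.rowK1 H977.rowK2 H113.rowK3 H369.rowK4

end Vale.Agent.P184.H13
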