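import Vale.Agent.P184.H13.Rep

/-!
# P184: the trace of the difference of two monomial representations
-/

noncomputable section

namespace Vale.Agent.P184.H13

open scoped Topology ENNReal

section

variable {G X : Type*} [Group G] [MulAction G X] {q : ℕ}

/-- difference of two cocycles -/
def dif (α α' : Uc G X) (g : G) : Bd X :=
  ⟨fun x => α'.a g x - α.a g x, 2, fun x => (norm_sub_le _ _).trans (by
    rw [α.norm, α'.norm]; norm_num), by norm_num⟩

/-- the terms of the difference -/
def T (α α' : Uc G X) (F : G → Matrix (Fin q) (Fin q) ℂ) (g : G) :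
    E (X × Fin q) →L[ℂ] E (X × Fin q) := U (dif α α' g) (MulAction.toPerm g) (F g)

theorem T_eq (α α' : Uc G X) (F : G → Matrix (Fin q) (Fin q) ℂ) (g : G) :
    T α α' F g = V α' g (F g) - V α g (F g) := by
  refine ContinuousLinearMap.ext fun v => E_ext fun y => ?_
  change (α'.a g (g⁻¹ • y.1) - α.a g (g⁻¹ • y.1)) * _ = V α' g (F g) v y - V α g (F g) v y
  rw [V_apply, V_apply, ← sub_mul]
  rfl

theorem rho_sub (α α' : Uc G X) {F : G → Matrix (Fin q) (Fin q) ℂ}
    (hF : Summable fun g => sm (F g)) : rho α' F - rho α F = ∑' g, T α α' F g := by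
  unfold rho
  rw [← Summable.tsum_sub (V_summable α' hF).of_norm (V_summable α hF).of_norm]
  exact tsum_congr fun g => (T_eq α α' F g).symm

theorem T_summable (α α' : Uc G X) {F : G → Matrix (Fin q) (Fin q) ℂ}
    (hF : Summable fun g => sm (F g)) : Summable fun g => T α α' F g := by
  have := (V_summable α' hF).of_norm.sub (V_summable α hF).of_norm
  exact this.congr fun g => (T_eq α α' F g).symm

variable {α α' : Uc G X} {F : G → Matrix (Fin q) (Fin q) ℂ} {lam : G → ℝ}

/-- row norms of the terms -/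
def rn (α α' : Uc G X) (F : G → Matrix (Fin q) (Fin q) ℂ) (g : G) (y : X × Fin q) : ℝ :=
  ‖(co y).comp (T α α' F g)‖

theorem rn_nonneg (g : G) (y : X × Fin q) : 0 ≤ rn α α' F g y := norm_nonneg _

theorem rn_row (hfin : ∀ g, {x | α'.a g x ≠ α.a g x}.Finite) (g : G) :
    (Summable fun y => rn α α' F g y) ∧ ∑' y, rn α α' F g y ≤
      (({x | α'.a g x ≠ α.a g x} : Set X).ncard : ℝ) * (2 * q * sm (F g)) := by
  classical
  set D : Finset X := (hfin g).toFinset with hD
  have hmem : ∀ x, x ∈ D ↔ α'.a g x ≠ α.a g x := fun x => by rw [hD, Set.Finite.mem_toFinset]; rfl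
  let φ : X × Fin q ≃ X × Fin q := Equiv.prodCongr (MulAction.toPerm g) (Equiv.refl _)
  have hb : ∀ y : X × Fin q, rn α α' F g (φ y) ≤ if y.1 ∈ D then 2 * sm (F g) else 0 := by
    intro y
    have h1 : rn α α' F g (φ y) ≤ ‖α'.a g y.1 - α.a g y.1‖ * sm (F g) := by
      have := norm_co_U (dif α α' g) (MulAction.toPerm g) (F g) (g • y.1) y.2
      have h2 : (MulAction.toPerm g : Equiv.Perm X).symm (g • y.1) = y.1 := by
        rw [Equiv.symm_apply_eq]; rfl
      rw [h2] at this
      exact this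
    by_cases hy : y.1 ∈ D
    · rw [if_pos hy]
      refine h1.trans (mul_le_mul_of_nonneg_right ?_ (sm_nonneg _))
      exact (dif α α' g).le y.1
    · rw [if_neg hy]
      have h3 : α'.a g y.1 = α.a g y.1 := by
        by_contra h
        exact hy ((hmem _).2 h)
      rw [h3, sub_self, norm_zero, zero_mul] at h1
      exact h1
  have hz : ∀ y ∉ D ×ˢ (Finset.univ : Finset (Fin q)),
      (if y.1 ∈ D then 2 * sm (F g) else (0 : ℝ)) = 0 := by
    intro y hy
    refine if_neg fun h => hy ?_
    exact Finset.mem_product.2 ⟨h, Finset.mem_univ _⟩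
  have hs : Summable fun y : X × Fin q => if y.1 ∈ D then 2 * sm (F g) else (0 : ℝ) :=
    summable_of_ne_finset_zero hz
  have hs2 : Summable fun y => rn α α' F g (φ y) :=
    Summable.of_nonneg_of_le (fun _ => norm_nonneg _) hb hs
  refine ⟨φ.summable_iff.1 hs2, ?_⟩
  rw [← φ.tsum_eq (fun y => rn α α' F g y)]
  refine (hs2.tsum_le_tsum hb hs).trans ?_
  rw [tsum_eq_sum hz, Finset.sum_product]
  have h5 : ∀ x ∈ D, ∑ _i : Fin q, (if x ∈ D then 2 * sm (F g) else (0 : ℝ)) =
      2 * q * sm (F g) := by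
    intro x hx
    rw [if_pos hx, Finset.sum_const, Finset.card_univ, Fintype.card_fin, nsmul_eq_mul]
    ring
  rw [Finset.sum_congr rfl h5, Finset.sum_const, nsmul_eq_mul]
  refine le_of_eq ?_
  congr 1
  rw [Set.ncard_eq_toFinset_card _ (hfin g)]

variable (hfin : ∀ g, {x | α'.a g x ≠ α.a g x}.Finite)
  (hlam : ∀ g, (({x | α'.a g x ≠ α.a g x} : Set X).ncard : ℝ) ≤ lam g)
  (hF : Summable fun g => sm (F g)) (hFl : Summable fun g => sm (F g) * lam g)

include hfin hlam hFl in
theorem rn_summable : Summable fun p : G × (X × Fin q) => rn α α' F p.1 p.2 := by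
  refine (summable_prod_of_nonneg (f := fun p : G × (X × Fin q) => rn α α' F p.1 p.2)
    fun _ => norm_nonneg _).2 ⟨fun g => (rn_row hfin g).1, ?_⟩
  refine Summable.of_nonneg_of_le (fun g => tsum_nonneg fun _ => norm_nonneg _)
    (fun g => ((rn_row hfin g).2.trans ?_)) (hFl.mul_left (2 * q : ℝ))
  calc (({x | α'.a g x ≠ α.a g x} : Set X).ncard : ℝ) * (2 * q * sm (F g))
      ≤ lam g * (2 * q * sm (F g)) := by
        refine mul_le_mul_of_nonneg_right (hlam g) ?_
        exact mul_nonneg (by positivity) (sm_nonneg _)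
    _ = 2 * q * (sm (F g) * lam g) := by ring

include hfin hlam hF hFl in
theorem nuc_sub : Nuc (rho α' F - rho α F) := by
  have h1 := rn_summable hfin hlam hFl
  have h2 : Summable fun p : (X × Fin q) × G => rn α α' F p.2 p.1 := h1.prod_symm
  refine Summable.of_nonneg_of_le (fun _ => norm_nonneg _) (fun y => ?_) h2.prod
  rw [rho_sub α α' hF]
  have h3 := (ContinuousLinearMap.compL ℂ (E (X × Fin q)) (E (X × Fin q)) ℂ (co y)).map_tsum
    (T_summable α α' hF)
  change ‖(ContinuousLinearMap.compL ℂ (E (X × Fin q)) (E (X × Fin q)) ℂ (co y))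
    (∑' g, T α α' F g)‖ ≤ _
  rw [h3]
  exact norm_tsum_le_tsum_norm (h2.prod_factor y)

/-- the terms of the trace -/
def tm (α α' : Uc G X) (F : G → Matrix (Fin q) (Fin q) ℂ) (g : G) (y : X × Fin q) : ℂ :=
  T α α' F g (dl y) y

theorem tm_le (g : G) (y : X × Fin q) : ‖tm α α' F g y‖ ≤ rn α α' F g y := by
  have h := ((co y).comp (T α α' F g)).le_opNorm (dl y)
  refine le_trans h ?_
  exact mul_le_of_le_one_right (norm_nonneg _) (norm_dl y)

open Classical in
theorem tm_eq (g : G) (z : X) (i : Fin q) :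
    tm α α' F g (z, i) = if g • z = z then (α'.a g z - α.a g z) * F g i i else 0 :=
  U_dl (dif α α' g) (MulAction.toPerm g) (F g) z i

include hfin hlam hF hFl in
open Classical in
theorem tr_sub : (Summable fun p : G × X => if p.1 • p.2 = p.2 then
      (α'.a p.1 p.2 - α.a p.1 p.2) * ∑ i, F p.1 i i else 0) ∧
    tr (rho α' F - rho α F) = ∑' p : G × X, if p.1 • p.2 = p.2 then
      (α'.a p.1 p.2 - α.a p.1 p.2) * ∑ i, F p.1 i i else 0 := by
  have h1 := rn_summable hfin hlam hFl
  have ht : Summable fun p : G × (X × Fin q) => tm α α' F p.1 p.2 :=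
    Summable.of_norm_bounded h1 fun p => tm_le p.1 p.2
  have ht' : Summable fun p : (G × X) × Fin q => tm α α' F p.1.1 (p.1.2, p.2) := by
    have := (Equiv.prodAssoc G X (Fin q)).summable_iff.2 ht
    exact this
  have hin : ∀ p : G × X, ∑' i, tm α α' F p.1 (p.2, i) = if p.1 • p.2 = p.2 then
      (α'.a p.1 p.2 - α.a p.1 p.2) * ∑ i, F p.1 i i else 0 := by
    intro p
    rw [tsum_fintype]
    by_cases h : p.1 • p.2 = p.2
    · rw [if_pos h, Finset.mul_sum]
      exact Finset.sum_congr rfl fun i _ => by rw [tm_eq, if_pos h]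
    · rw [if_neg h]
      exact Finset.sum_eq_zero fun i _ => by rw [tm_eq, if_neg h]
  refine ⟨ht'.prod.congr hin, ?_⟩
  have h2 : tr (rho α' F - rho α F) = ∑' y, ∑' g, tm α α' F g y := by
    unfold tr
    refine tsum_congr fun y => ?_
    rw [rho_sub α α' hF]
    have h3 := ((co y).comp (ContinuousLinearMap.apply ℂ (E (X × Fin q)) (dl y))).map_tsum
      (T_summable α α' hF)
    exact h3
  have h4 : ∑' y, ∑' g, tm α α' F g y = ∑' g, ∑' y, tm α α' F g y :=
    Summable.tsum_comm (f := fun g y => tm α α' F g y) ht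
  have h5 : ∑' p : G × (X × Fin q), tm α α' F p.1 p.2 =
      ∑' p : (G × X) × Fin q, tm α α' F p.1.1 (p.1.2, p.2) :=
    ((Equiv.prodAssoc G X (Fin q)).tsum_eq
      (fun p : G × (X × Fin q) => tm α α' F p.1 p.2)).symm
  rw [h2, h4, ← ht.tsum_prod, h5, ht'.tsum_prod]
  exact tsum_congr hin

end

end Vale.Agent.P184.H13
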