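import Vale.Agent.P184.H11.Hnn

/-!
# P184: two-generator groups containing a given countable group
-/

namespace Vale.Agent.P184.H13.Univ

open Vale.Agent.P184 HNNExtension

universe u

/-! ### a free subgroup of infinite rank -/

/-- the shift -/
def shift : Multiplicative ℤ →* MulAut (FreeGroup ℤ) :=
  zpowersHom (MulAut (FreeGroup ℤ)) (FreeGroup.freeGroupCongr (Equiv.addRight (1 : ℤ)))

theorem shift_of (n : ℤ) (k : ℤ) :
    shift (Multiplicative.ofAdd n) (FreeGroup.of k) = FreeGroup.of (k + n) := by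
  have h1 : ∀ m : ℕ, ∀ k : ℤ, ((FreeGroup.freeGroupCongr (Equiv.addRight (1 : ℤ)) :
      MulAut (FreeGroup ℤ)) ^ m) (FreeGroup.of k) = FreeGroup.of (k + m) := by
    intro m
    induction m with
    | zero => intro k; simp
    | succ m ih =>
      intro k
      rw [pow_succ, MulAut.mul_apply]
      change ((FreeGroup.freeGroupCongr (Equiv.addRight (1 : ℤ)) :
        MulAut (FreeGroup ℤ)) ^ m) (FreeGroup.map (fun i : ℤ => i + 1) (FreeGroup.of k)) = _
      rw [FreeGroup.map.of, ih]
      congr 1
      push_cast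
      ring
  change ((FreeGroup.freeGroupCongr (Equiv.addRight (1 : ℤ)) : MulAut (FreeGroup ℤ)) ^ n)
    (FreeGroup.of k) = _
  obtain ⟨m, rfl | rfl⟩ := n.eq_nat_or_neg
  · rw [zpow_natCast]
    exact h1 m k
  · rw [zpow_neg, zpow_natCast]
    change ((FreeGroup.freeGroupCongr (Equiv.addRight (1 : ℤ)) : MulAut (FreeGroup ℤ)) ^ m).symm
      (FreeGroup.of k) = _
    rw [MulEquiv.symm_apply_eq, h1]
    congr 1
    ring

/-- The elements `v ^ (- i) * u * v ^ i`, `i ≥ 0`, freely generate a subgroup. -/
theorem free_inj : Function.Injective (FreeGroup.lift fun i : ℕ =>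
    ((FreeGroup.of false : FreeGroup Bool) ^ i)⁻¹ * FreeGroup.of true *
      FreeGroup.of false ^ i) := by
  let θ : FreeGroup Bool →* FreeGroup ℤ ⋊[shift] Multiplicative ℤ :=
    FreeGroup.lift fun b => if b then SemidirectProduct.inl (FreeGroup.of (0 : ℤ))
      else SemidirectProduct.inr (Multiplicative.ofAdd (1 : ℤ))
  have hx : θ (FreeGroup.of true) = SemidirectProduct.inl (FreeGroup.of (0 : ℤ)) := by
    simp [θ]
  have hy : θ (FreeGroup.of false) = SemidirectProduct.inr (Multiplicative.ofAdd (1 : ℤ)) := by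
    simp [θ]
  have h1 : (θ.comp (FreeGroup.lift fun i : ℕ => ((FreeGroup.of false : FreeGroup Bool) ^ i)⁻¹ *
      FreeGroup.of true * FreeGroup.of false ^ i)) =
      (SemidirectProduct.inl).comp (FreeGroup.map fun i : ℕ => -(i : ℤ)) := by
    refine FreeGroup.ext_hom _ _ fun i => ?_
    rw [MonoidHom.comp_apply, MonoidHom.comp_apply, FreeGroup.lift_apply_of, FreeGroup.map.of,
      map_mul, map_mul, map_inv, map_pow, hx, hy, ← map_pow, ← ofAdd_nsmul, nsmul_eq_mul, mul_one]
    have h2 := SemidirectProduct.inl_aut_inv (φ := shift) (Multiplicative.ofAdd (i : ℤ))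
      (FreeGroup.of (0 : ℤ))
    rw [← map_inv] at h2
    rw [← map_inv, ← h2, ← ofAdd_neg, shift_of, zero_add]
  have h3 : Function.Injective (θ.comp (FreeGroup.lift fun i : ℕ =>
      ((FreeGroup.of false : FreeGroup Bool) ^ i)⁻¹ * FreeGroup.of true *
        FreeGroup.of false ^ i)) := by
    rw [h1, MonoidHom.coe_comp]
    refine SemidirectProduct.inl_injective.comp (FreeGroup.map_injective ?_)
    intro i j hij
    have : -(i : ℤ) = -(j : ℤ) := hij
    omega
  rw [MonoidHom.coe_comp] at h3
  exact h3.of_comp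

/-- The same with the two generators exchanged. -/
theorem free_inj' : Function.Injective (FreeGroup.lift fun i : ℕ =>
    ((FreeGroup.of true : FreeGroup Bool) ^ i)⁻¹ * FreeGroup.of false *
      FreeGroup.of true ^ i) := by
  let σ : FreeGroup Bool →* FreeGroup Bool := FreeGroup.map not
  have h1 : σ.comp (FreeGroup.lift fun i : ℕ => ((FreeGroup.of true : FreeGroup Bool) ^ i)⁻¹ *
      FreeGroup.of false * FreeGroup.of true ^ i) =
      FreeGroup.lift fun i : ℕ => ((FreeGroup.of false : FreeGroup Bool) ^ i)⁻¹ *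
        FreeGroup.of true * FreeGroup.of false ^ i := by
    refine FreeGroup.ext_hom _ _ fun i => ?_
    rw [MonoidHom.comp_apply, FreeGroup.lift_apply_of, FreeGroup.lift_apply_of, map_mul, map_mul,
      map_inv, map_pow]
    simp only [σ, FreeGroup.map.of, Bool.not_true, Bool.not_false]
  have h2 := free_inj
  rw [← h1, MonoidHom.coe_comp] at h2
  exact h2.of_comp

end Vale.Agent.P184.H13.Univ
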