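import Vale.Agent.P184.H13.Univ1

/-!
# P184: two-generator groups containing a given countable group
-/

namespace Vale.Agent.P184.H13.Univ

open Vale.Agent.P184 HNNExtension Monoid.Coprod

universe u

section

variable {K : Type u} [Group K]

/-- the first free generator -/
def gx (K : Type u) [Group K] : Monoid.Coprod K (FreeGroup Bool) := inr (FreeGroup.of true)

/-- the second free generator -/
def gy (K : Type u) [Group K] : Monoid.Coprod K (FreeGroup Bool) := inr (FreeGroup.of false)

/-- the coefficients -/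
def cf (h : ℕ → K) : ℕ → K
  | 0 => 1
  | i + 1 => h i

/-- the first free subgroup -/
def pa (K : Type u) [Group K] : FreeGroup ℕ →* Monoid.Coprod K (FreeGroup Bool) :=
  FreeGroup.lift fun i => (gy K ^ i)⁻¹ * gx K * gy K ^ i

/-- the second free subgroup -/
def pb (h : ℕ → K) : FreeGroup ℕ →* Monoid.Coprod K (FreeGroup Bool) :=
  FreeGroup.lift fun i => inl (cf h i) * ((gx K ^ i)⁻¹ * gy K * gx K ^ i)

theorem pa_of (i : ℕ) : pa K (FreeGroup.of i) = (gy K ^ i)⁻¹ * gx K * gy K ^ i :=
  FreeGroup.lift_apply_of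

theorem pb_of (h : ℕ → K) (i : ℕ) :
    pb h (FreeGroup.of i) = inl (cf h i) * ((gx K ^ i)⁻¹ * gy K * gx K ^ i) :=
  FreeGroup.lift_apply_of

theorem snd_pa : (snd.comp (pa K) : FreeGroup ℕ →* FreeGroup Bool) =
    FreeGroup.lift fun i : ℕ => ((FreeGroup.of false : FreeGroup Bool) ^ i)⁻¹ *
      FreeGroup.of true * FreeGroup.of false ^ i := by
  refine FreeGroup.ext_hom _ _ fun i => ?_
  rw [MonoidHom.comp_apply, pa, FreeGroup.lift_apply_of, FreeGroup.lift_apply_of, map_mul, map_mul,
    map_inv, map_pow, gx, gy, snd_apply_inr, snd_apply_inr]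

theorem snd_pb (h : ℕ → K) : (snd.comp (pb h) : FreeGroup ℕ →* FreeGroup Bool) =
    FreeGroup.lift fun i : ℕ => ((FreeGroup.of true : FreeGroup Bool) ^ i)⁻¹ *
      FreeGroup.of false * FreeGroup.of true ^ i := by
  refine FreeGroup.ext_hom _ _ fun i => ?_
  rw [MonoidHom.comp_apply, pb, FreeGroup.lift_apply_of, FreeGroup.lift_apply_of, map_mul, map_mul,
    map_mul, map_inv, map_pow, gx, gy, snd_apply_inr, snd_apply_inr, snd_apply_inl, one_mul]

theorem snd_pa_inj : Function.Injective (snd.comp (pa K) : FreeGroup ℕ →* FreeGroup Bool) := by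
  rw [snd_pa]
  exact free_inj

theorem snd_pb_inj (h : ℕ → K) :
    Function.Injective (snd.comp (pb h) : FreeGroup ℕ →* FreeGroup Bool) := by
  rw [snd_pb]
  exact free_inj'

theorem pa_inj : Function.Injective (pa K) := by
  have h1 := snd_pa_inj (K := K)
  rw [MonoidHom.coe_comp] at h1
  exact h1.of_comp

theorem pb_inj (h : ℕ → K) : Function.Injective (pb h) := by
  have h1 := snd_pb_inj h
  rw [MonoidHom.coe_comp] at h1
  exact h1.of_comp

/-- the isomorphism of the two free subgroups -/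
noncomputable def iso (h : ℕ → K) : (pa K).range ≃* (pb h).range :=
  (MonoidHom.ofInjective (pa_inj (K := K))).symm.trans (MonoidHom.ofInjective (pb_inj h))

theorem iso_pa (h : ℕ → K) (w : FreeGroup ℕ) :
    (iso h ⟨pa K w, w, rfl⟩ : Monoid.Coprod K (FreeGroup Bool)) = pb h w := by
  have h1 : (MonoidHom.ofInjective (pa_inj (K := K))).symm ⟨pa K w, w, rfl⟩ = w := by
    rw [MulEquiv.symm_apply_eq]
    rfl
  unfold iso
  rw [MulEquiv.trans_apply, h1]
  rfl

/-- The two-generator group. -/
abbrev U (h : ℕ → K) : Type u :=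
  HNNExtension (Monoid.Coprod K (FreeGroup Bool)) (pa K).range (pb h).range (iso h)

theorem t_pa (h : ℕ → K) (w : FreeGroup ℕ) :
    (t : U h) * of (pa K w) * t⁻¹ = of (pb h w) := by
  have h1 := HNNExtension.t_mul_of (φ := iso h) ⟨pa K w, w, rfl⟩
  rw [mul_inv_eq_iff_eq_mul]
  rw [iso_pa] at h1
  exact h1

/-- `U` is generated by two elements, if `K` is generated by the `h i`. -/
theorem gen (h : ℕ → K) (hh : Subgroup.closure (Set.range h) = ⊤) :
    Subgroup.closure {(of (gx K) : U h), t} = ⊤ := by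
  set S := Subgroup.closure {(of (gx K) : U h), t} with hS
  have hx : (of (gx K) : U h) ∈ S := Subgroup.subset_closure (Or.inl rfl)
  have ht : (t : U h) ∈ S := Subgroup.subset_closure (Or.inr rfl)
  have h0 : (of (gy K) : U h) ∈ S := by
    have h1 := t_pa h (FreeGroup.of 0)
    rw [pa_of, pb_of] at h1
    simp only [pow_zero, inv_one, one_mul, mul_one, cf, map_one] at h1
    rw [← h1]
    exact S.mul_mem (S.mul_mem ht hx) (S.inv_mem ht)
  have h2 : ∀ i : ℕ, (of (inl (cf h i)) : U h) ∈ S := by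
    intro i
    have h1 := t_pa h (FreeGroup.of i)
    rw [pa_of, pb_of] at h1
    have h3 : (of ((gy K ^ i)⁻¹ * gx K * gy K ^ i) : U h) ∈ S := by
      rw [map_mul, map_mul, map_inv, map_pow]
      exact S.mul_mem (S.mul_mem (S.inv_mem (S.pow_mem h0 i)) hx) (S.pow_mem h0 i)
    have h4 : (of ((gx K ^ i)⁻¹ * gy K * gx K ^ i) : U h) ∈ S := by
      rw [map_mul, map_mul, map_inv, map_pow]
      exact S.mul_mem (S.mul_mem (S.inv_mem (S.pow_mem hx i)) h0) (S.pow_mem hx i)
    have h5 : (of (inl (cf h i) * ((gx K ^ i)⁻¹ * gy K * gx K ^ i)) : U h) ∈ S := by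
      rw [← h1]
      exact S.mul_mem (S.mul_mem ht h3) (S.inv_mem ht)
    rw [map_mul] at h5
    have h6 := S.mul_mem h5 (S.inv_mem h4)
    rwa [mul_inv_cancel_right] at h6
  have h3 : ∀ k : K, (of (inl k) : U h) ∈ S := by
    intro k
    have h4 : (⊤ : Subgroup K) ≤ S.comap ((of (φ := iso h)).comp inl) := by
      rw [← hh, Subgroup.closure_le]
      rintro _ ⟨i, rfl⟩
      exact h2 (i + 1)
    exact h4 (Subgroup.mem_top k)
  have h4 : ∀ w : FreeGroup Bool, (of (inr w) : U h) ∈ S := by
    intro w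
    refine FreeGroup.induction_on w ?_ ?_ ?_ ?_
    · rw [map_one, map_one]; exact S.one_mem
    · intro b
      cases b with
      | false => exact h0
      | true => exact hx
    · intro b ih
      rw [map_inv, map_inv]; exact S.inv_mem ih
    · intro x y hx hy
      rw [map_mul, map_mul]; exact S.mul_mem hx hy
  have h5 : ∀ w : Monoid.Coprod K (FreeGroup Bool), (of w : U h) ∈ S := by
    intro w
    induction w using Monoid.Coprod.induction_on with
    | inl m => exact h3 m
    | inr n => exact h4 n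
    | mul x y hx hy => rw [map_mul]; exact S.mul_mem hx hy
  rw [eq_top_iff]
  intro g _
  induction g using HNNExtension.induction_on with
  | of g => exact h5 g
  | t => exact ht
  | mul x y hx hy => exact S.mul_mem (hx trivial) (hy trivial)
  | inv x hx => exact S.inv_mem (hx trivial)

/-- conjugates of elements of `K` in the free subgroups are trivial -/
theorem triv_of_mem (h : ℕ → K) {k : K} {g : Monoid.Coprod K (FreeGroup Bool)}
    (hg : g⁻¹ * inl k * g ∈ (pa K).range ∨ g⁻¹ * inl k * g ∈ (pb h).range) : k = 1 := by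
  have h1 : (snd : Monoid.Coprod K (FreeGroup Bool) →* FreeGroup Bool) (g⁻¹ * inl k * g) = 1 := by
    rw [map_mul, map_mul, snd_apply_inl, map_inv, mul_one, inv_mul_cancel]
  have h2 : g⁻¹ * inl k * g = 1 := by
    rcases hg with ⟨w, hw⟩ | ⟨w, hw⟩
    · rw [← hw] at h1 ⊢
      have h3 : w = 1 := snd_pa_inj (K := K) (by rw [map_one]; exact h1)
      rw [h3, map_one]
    · rw [← hw] at h1 ⊢
      have h3 : w = 1 := snd_pb_inj h (by rw [map_one]; exact h1)
      rw [h3, map_one]
  have h3 : (inl k : Monoid.Coprod K (FreeGroup Bool)) = 1 := by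
    have h4 : inl k = g * (g⁻¹ * inl k * g) * g⁻¹ := by group
    rw [h4, h2]
    group
  have h4 := congrArg (fst : Monoid.Coprod K (FreeGroup Bool) →* K) h3
  rwa [fst_apply_inl, map_one] at h4

/-- Elements of `K` which are conjugate in `U` are conjugate in `K`. -/
theorem conj_of (h : ℕ → K) {x y : K} (hx : x ≠ 1)
    (hxy : IsConj (of (inl x) : U h) (of (inl y))) : IsConj x y := by
  obtain ⟨c, hc⟩ := isConj_iff.1 hxy
  have hno : H290.Tree.NoEdge (H11.Hnn.Tr (iso h)) (H11.Hnn.mk (iso h) 1) (of (inl x) : U h) := by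
    intro n hn hfix
    obtain ⟨g, e, rfl⟩ := H11.Hnn.adj_of (iso h) hn
    rw [H11.Hnn.smul_mk, H11.Hnn.mk_eq] at hfix
    obtain ⟨g', hg'⟩ := hfix
    refine hx (triv_of_mem h (g := g) ?_)
    rcases Int.units_eq_one_or e with rfl | rfl
    · right
      have h1 : (t : U h) * of g'⁻¹ * t⁻¹ = of (g⁻¹ * inl x * g) := by
        simp only [Units.val_one, zpow_one, one_mul] at hg'
        rw [map_mul, map_mul, map_inv, map_inv]
        have h2 : (t : U h) = (of g)⁻¹ * (of (inl x) * (of g * t) * of g') := by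
          rw [← hg', inv_mul_cancel_left]
        have h3 : (t : U h) * (of g')⁻¹ = (of g)⁻¹ * of (inl x) * of g * t := by
          conv_lhs => rw [h2]
          group
        rw [h3, mul_inv_cancel_right]
      obtain ⟨w, hw⟩ := H11.Hnn.inter (iso h) h1
      rw [← hw, t_pa] at h1
      exact ⟨w, HNNExtension.of_injective (iso h) h1⟩
    · left
      have h1 : (t : U h) * of (g⁻¹ * inl x * g) * t⁻¹ = of g'⁻¹ := by
        simp only [Units.val_neg, Units.val_one, zpow_neg, zpow_one, one_mul] at hg'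
        rw [map_mul, map_mul, map_inv, map_inv]
        have h3 : (of (inl x) : U h) * of g * t⁻¹ = of g * t⁻¹ * (of g')⁻¹ := by
          conv_rhs => rw [hg']
          group
        have h4 : (t : U h) * ((of g)⁻¹ * of (inl x) * of g) * t⁻¹ =
            t * (of g)⁻¹ * (of (inl x) * of g * t⁻¹) := by group
        rw [h4, h3]
        group
      exact H11.Hnn.inter (iso h) h1
  have hv : (of (inl x) : U h) • H11.Hnn.mk (iso h) 1 = H11.Hnn.mk (iso h) 1 := by
    rw [H11.Hnn.smul_mk, H11.Hnn.mk_eq]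
    exact ⟨(inl x)⁻¹, by rw [map_inv]; group⟩
  have hw : (of (inl x) : U h) • H11.Hnn.mk (iso h) c⁻¹ = H11.Hnn.mk (iso h) c⁻¹ := by
    rw [H11.Hnn.smul_mk, H11.Hnn.mk_eq]
    refine ⟨(inl y)⁻¹, ?_⟩
    rw [map_inv, ← hc]
    group
  have h1 := H290.Tree.fix_eq (H11.Hnn.isTree (iso h)) (H11.Hnn.hadj (iso h)) hv hno hw
  rw [H11.Hnn.mk_eq] at h1
  obtain ⟨w, hw'⟩ := h1
  have h2 : c = of w := by
    rw [← mul_right_inj c⁻¹, inv_mul_cancel]
    exact hw'
  rw [h2, ← map_mul, ← map_inv, ← map_mul] at hc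
  have h3 := congrArg (fst : Monoid.Coprod K (FreeGroup Bool) →* K)
    (HNNExtension.of_injective (iso h) hc)
  rw [map_mul, map_mul, fst_apply_inl, fst_apply_inl, map_inv] at h3
  exact isConj_iff.2 ⟨_, h3⟩

/-- The `ℓ¹`-Bass conjecture for the two-generator group implies it for `K`. -/
theorem l1Bass_of_U (h : ℕ → K) (hU : L1Bass (U h)) : L1Bass K := by
  refine H290.l1Bass_of_inj (of.comp inl : K →* U h) ?_ {ConjClasses.mk 1}
    (Set.finite_singleton _) ?_ ?_ hU
  · exact (HNNExtension.of_injective (iso h)).comp inl_injective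
  · rintro _ rfl
    exact isTorsionClass_mk.2 IsOfFinOrder.one
  · intro x y hx hxy
    refine conj_of h ?_ hxy
    rintro rfl
    exact hx rfl

end

end Vale.Agent.P184.H13.Univ
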