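import Vale.Agent.P184.H13.Univ2
import Vale.Agent.P184.H11.Free

/-!
# P184: a two-generator group whose `ℓ¹`-Bass conjecture is that of all groups
-/

namespace Vale.Agent.P184.H13.Univ

open Vale.Agent.P184 HNNExtension

universe u

/-- codes of finite presentations -/
abbrev Ix : Type := Σ n : ℕ, List (List (Fin n × Bool))

/-- the finitely presented groups -/
abbrev Pr (i : Ix) : Type := PresentedGroup {r : FreeGroup (Fin i.1) | ∃ l ∈ i.2, r = FreeGroup.mk l}

/-- the free product of all finitely presented groups -/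
abbrev KK : Type := Monoid.CoprodI Pr

theorem exists_gen : ∃ h : ℕ → KK, Subgroup.closure (Set.range h) = ⊤ := by
  classical
  obtain ⟨g, hg⟩ := exists_surjective_nat (Option (Σ i : Ix, Fin i.1))
  let k : (Σ i : Ix, Fin i.1) → KK := fun j =>
    Monoid.CoprodI.of (M := Pr) (i := j.1) (PresentedGroup.of j.2)
  refine ⟨fun n => (g n).elim 1 k, ?_⟩
  set S := Subgroup.closure (Set.range fun n => (g n).elim 1 k) with hS
  have h1 : ∀ j, k j ∈ S := by
    intro j
    obtain ⟨n, hn⟩ := hg (some j)
    refine Subgroup.subset_closure ⟨n, ?_⟩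
    change (g n).elim 1 k = k j
    rw [hn]
    rfl
  have h2 : ∀ (i : Ix) (m : Pr i), (Monoid.CoprodI.of m : KK) ∈ S := by
    intro i m
    have h3 : (⊤ : Subgroup (Pr i)) ≤ S.comap (Monoid.CoprodI.of (M := Pr) (i := i)) := by
      rw [← PresentedGroup.closure_range_of, Subgroup.closure_le]
      rintro _ ⟨j, rfl⟩
      exact h1 ⟨i, j⟩
    exact h3 (Subgroup.mem_top m)
  rw [eq_top_iff]
  intro x _
  induction x using Monoid.CoprodI.induction_on with
  | one => exact S.one_mem
  | of i m => exact h2 i m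
  | mul x y hx hy => exact S.mul_mem (hx trivial) (hy trivial)

/-- Every finitely presented group occurs. -/
theorem exists_code {n : ℕ} (rels : Set (FreeGroup (Fin n))) (hf : rels.Finite) :
    ∃ L : List (List (Fin n × Bool)), {r | ∃ l ∈ L, r = FreeGroup.mk l} = rels := by
  classical
  refine ⟨hf.toFinset.toList.map FreeGroup.toWord, ?_⟩
  ext r
  simp only [List.mem_map, Finset.mem_toList, Set.Finite.mem_toFinset, Set.mem_ofPred_eq]
  constructor
  · rintro ⟨_, ⟨s, hs, rfl⟩, rfl⟩
    rwa [FreeGroup.mk_toWord]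
  · intro hr
    exact ⟨_, ⟨r, hr, rfl⟩, FreeGroup.mk_toWord.symm⟩

/-- There is a two-generator group which satisfies the `ℓ¹`-Bass conjecture if and only if all
groups do. -/
theorem universal : ∃ (U : Type) (_ : Group U), (∃ x t : U, Subgroup.closure {x, t} = ⊤) ∧
    (L1Bass U ↔ ∀ (G : Type u) [Group G], L1Bass G) := by
  classical
  obtain ⟨h, hh⟩ := exists_gen
  refine ⟨U h, inferInstance, ⟨_, _, gen h hh⟩, fun hU => ?_, fun hG => ?_⟩
  · have hK : L1Bass KK := l1Bass_of_U h hU
    intro G _
    refine l1Bass_of_fp (fun n rels hf => ?_) G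
    obtain ⟨L, rfl⟩ := exists_code rels hf
    let i : Ix := ⟨n, L⟩
    refine H11.l1Bass_retract (Monoid.CoprodI.of (M := Pr) (i := i))
      (Monoid.CoprodI.lift fun j => if hj : j = i then
        (by subst hj; exact MonoidHom.id _) else 1) (fun x => ?_) hK
    rw [Monoid.CoprodI.lift_of]
    simp
  · have h1 := hG (ULift.{u} (U h))
    exact H11.l1Bass_retract (MulEquiv.ulift.symm : U h ≃* ULift.{u} (U h)).toMonoidHom
      (MulEquiv.ulift : ULift.{u} (U h) ≃* U h).toMonoidHom (fun x => rfl) h1

end Vale.Agent.P184.H13.Univ
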