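import Vale.Agent.P184.H856.LocMain
import Vale.Agent.P184.H788.ProdN
import Vale.Agent.P184.H11.Free

/-!
# P184: wreath products of finite groups by arbitrary groups
-/

namespace Vale.Agent.P184.H13

open Vale.Agent.P184 Vale.Agent.P184.H977

universe u v w

theorem rw_finite (B : Type u) (Q : Type v) [Group B] [Group Q] [Finite B] [Finite Q] :
    Finite (RW B Q) := by
  refine Finite.of_injective (fun a : RW B Q => (a.fn, a.pt)) fun a b h => ?_
  have h1 := Prod.ext_iff.1 h
  exact RW.ext' (fun x => congrFun h1.1 x) h1.2

/-- `B wr Q` for a finite group `B` and an arbitrary group `Q`. -/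
theorem wreath_finite {S : Type w} {B : Type u} {Q : Type v} [Group S] [Group B] [Group Q]
    [Finite B] : L1Bass (S × RW B Q) ↔ L1Bass (S × Q) := by
  constructor
  · exact H11.l1Bass_retract ((MonoidHom.id S).prodMap (RW.incl (B := B)))
      ((MonoidHom.id S).prodMap RW.proj) fun x => rfl
  · intro h
    refine H856.Loc.wreath_of h fun s hs k => ?_
    have h1 : Finite (Subgroup.zpowers s) := hs.finite_zpowers.to_subtype
    have h2 : Finite (RW (Fin k → B) (Subgroup.zpowers s)) := rw_finite _ _
    exact H788.bass_prod_finite.2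
      (H11.l1Bass_retract (MonoidHom.inl S Q) (MonoidHom.fst S Q) (fun _ => rfl) h)

end Vale.Agent.P184.H13
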