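import Vale.Agent.P184.H13.WFin

/-!
# P184: wreath products of locally nice groups by arbitrary groups
-/

namespace Vale.Agent.P184.H13

open Vale.Agent.P184 Vale.Agent.P184.H977

universe u v w

theorem wreath_locNice {S : Type w} {B : Type u} {Q : Type v} [Group S] [Group B] [Group Q]
    (hB : ∀ s : Q, IsOfFinOrder s → ∀ (k : ℕ)
      (T : Finset (RW (Fin k → B) (Subgroup.zpowers s))),
      W.Nice (Subgroup.closure (T : Set (RW (Fin k → B) (Subgroup.zpowers s)))) ∧
        H788.TorSep (Subgroup.closure (T : Set (RW (Fin k → B) (Subgroup.zpowers s))))) :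
    L1Bass (S × RW B Q) ↔ L1Bass (S × Q) := by
  constructor
  · exact H11.l1Bass_retract ((MonoidHom.id S).prodMap (RW.incl (B := B)))
      ((MonoidHom.id S).prodMap RW.proj) fun x => rfl
  · intro h
    refine H856.Loc.wreath_of h fun s hs k => ?_
    exact (H788.bass_prod_locNice (hB s hs k)).2
      (H11.l1Bass_retract (MonoidHom.inl S Q) (MonoidHom.fst S Q) (fun _ => rfl) h)

end Vale.Agent.P184.H13
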